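import Mathlib

/-!
Abstract part: a symmetric plan built from two families of triples, duality, and
the impossibility of an optimal map.
-/

namespace Vale.Agent.P121

open MeasureTheory Set
open scoped ENNReal

variable {Ω X : Type*} [MeasurableSpace Ω] [MeasurableSpace X]

/-- `x, y, z` are, in some order, the points `F (ω, 0), F (ω, j), F (ω, k)`. -/
def Tri (F : Ω × Fin 5 → X) (j k : Fin 5) (x y z : X) : Prop :=
  ∃ ω, (x = F (ω, 0) ∧ y = F (ω, j) ∧ z = F (ω, k)) ∨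
    (x = F (ω, 0) ∧ y = F (ω, k) ∧ z = F (ω, j)) ∨
    (x = F (ω, j) ∧ y = F (ω, 0) ∧ z = F (ω, k)) ∨
    (x = F (ω, j) ∧ y = F (ω, k) ∧ z = F (ω, 0)) ∨
    (x = F (ω, k) ∧ y = F (ω, 0) ∧ z = F (ω, j)) ∨
    (x = F (ω, k) ∧ y = F (ω, j) ∧ z = F (ω, 0))

/-- The contact relation. -/
def Con (F : Ω × Fin 5 → X) (x y z : X) : Prop := Tri F 1 2 x y z ∨ Tri F 3 4 x y z

/-- The mixture of the five clusters. -/
noncomputable def mix (lam : Measure Ω) (F : Ω × Fin 5 → X) : Measure X :=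
  (6 : ℝ≥0∞)⁻¹ • (lam.map (fun ω => F (ω, 0)) + lam.map (fun ω => F (ω, 1)) +
    lam.map (fun ω => F (ω, 2)) + (lam.map (fun ω => F (ω, 0)) + lam.map (fun ω => F (ω, 3)) +
    lam.map (fun ω => F (ω, 4))))

theorem meas_comp {F : Ω × Fin 5 → X} (hF : Measurable F) (k : Fin 5) :
    Measurable (fun ω => F (ω, k)) := hF.comp (measurable_id.prodMk measurable_const)

theorem mix_apply (lam : Measure Ω) {F : Ω × Fin 5 → X} (hF : Measurable F) {s : Set X}
    (hs : MeasurableSet s) :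
    mix lam F s = (6 : ℝ≥0∞)⁻¹ * (lam {ω | F (ω, 0) ∈ s} + lam {ω | F (ω, 1) ∈ s} +
      lam {ω | F (ω, 2) ∈ s} + (lam {ω | F (ω, 0) ∈ s} + lam {ω | F (ω, 3) ∈ s} +
      lam {ω | F (ω, 4) ∈ s})) := by
  unfold mix
  rw [Measure.smul_apply, smul_eq_mul]
  simp only [Measure.coe_add, Pi.add_apply]
  simp only [Measure.map_apply (meas_comp hF _) hs]
  rfl

theorem lintegral_mix (lam : Measure Ω) {F : Ω × Fin 5 → X} (hF : Measurable F) {v : X → ℝ≥0∞}
    (hv : Measurable v) :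
    ∫⁻ x, v x ∂(mix lam F) = (6 : ℝ≥0∞)⁻¹ * (∫⁻ ω, v (F (ω, 0)) ∂lam + ∫⁻ ω, v (F (ω, 1)) ∂lam +
      ∫⁻ ω, v (F (ω, 2)) ∂lam + (∫⁻ ω, v (F (ω, 0)) ∂lam + ∫⁻ ω, v (F (ω, 3)) ∂lam +
      ∫⁻ ω, v (F (ω, 4)) ∂lam)) := by
  unfold mix
  rw [lintegral_smul_measure, smul_eq_mul]
  simp only [lintegral_add_measure]
  simp only [lintegral_map hv (meas_comp hF _)]

theorem mix_prob (lam : Measure Ω) [IsProbabilityMeasure lam] {F : Ω × Fin 5 → X}
    (hF : Measurable F) : IsProbabilityMeasure (mix lam F) := by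
  constructor
  rw [mix_apply lam hF MeasurableSet.univ]
  simp only [mem_univ, Set.ofPred_true, measure_univ]
  have : (1 : ℝ≥0∞) + 1 + 1 + (1 + 1 + 1) = 6 := by norm_num
  rw [this]
  exact ENNReal.inv_mul_cancel (by norm_num) (by norm_num)

theorem mix_range (lam : Measure Ω) {F : Ω × Fin 5 → X}
    (hF : MeasurableEmbedding F) : mix lam F (range F)ᶜ = 0 := by
  rw [mix_apply lam hF.measurable hF.measurableSet_range.compl]
  simp

/-- The measure of a piece of the cluster `k ≠ 0`. -/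
theorem mix_image (lam : Measure Ω) {F : Ω × Fin 5 → X}
    (hF : MeasurableEmbedding F) {D : Set Ω} (hD : MeasurableSet D) {k : Fin 5} (hk : k ≠ 0) :
    mix lam F (F '' (D ×ˢ {k})) = (6 : ℝ≥0∞)⁻¹ * lam D := by
  have hs : MeasurableSet (F '' (D ×ˢ {k})) :=
    hF.measurableSet_image.2 (hD.prod (MeasurableSet.singleton k))
  rw [mix_apply lam hF.measurable hs]
  have key : ∀ j : Fin 5, {ω | F (ω, j) ∈ F '' (D ×ˢ {k})} = if j = k then D else ∅ := by
    intro j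
    ext ω
    rw [Set.mem_ofPred_eq, hF.injective.mem_set_image]
    by_cases hjk : j = k
    · simp [hjk]
    · simp [hjk]
  simp only [key]
  fin_cases k
  · exact absurd rfl hk
  all_goals simp

section coupling

variable {cost : X → X → X → ℝ≥0∞} {v : X → ℝ≥0∞}

/-- Duality lower bound. -/
theorem dual_le {μ : Measure X} {π : Measure (X × X × X)} {S : Set X} (hS : MeasurableSet S)
    (hμS : μ Sᶜ = 0) (hv : Measurable v)
    (h1 : π.map (fun p => p.1) = μ) (h2 : π.map (fun p => p.2.1) = μ)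
    (h3 : π.map (fun p => p.2.2) = μ)
    (hle : ∀ x ∈ S, ∀ y ∈ S, ∀ z ∈ S, v x + v y + v z ≤ cost x y z) :
    (∫⁻ x, v x ∂μ) + (∫⁻ x, v x ∂μ) + (∫⁻ x, v x ∂μ) ≤ ∫⁻ p, cost p.1 p.2.1 p.2.2 ∂π := by
  have m1 : Measurable (fun p : X × X × X => p.1) := measurable_fst
  have m2 : Measurable (fun p : X × X × X => p.2.1) := measurable_fst.comp measurable_snd
  have m3 : Measurable (fun p : X × X × X => p.2.2) := measurable_snd.comp measurable_snd
  have a1 : ∀ᵐ p ∂π, p.1 ∈ S := by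
    have : π ((fun p : X × X × X => p.1) ⁻¹' Sᶜ) = 0 := by
      rw [← Measure.map_apply m1 hS.compl, h1, hμS]
    exact this
  have a2 : ∀ᵐ p ∂π, p.2.1 ∈ S := by
    have : π ((fun p : X × X × X => p.2.1) ⁻¹' Sᶜ) = 0 := by
      rw [← Measure.map_apply m2 hS.compl, h2, hμS]
    exact this
  have a3 : ∀ᵐ p ∂π, p.2.2 ∈ S := by
    have : π ((fun p : X × X × X => p.2.2) ⁻¹' Sᶜ) = 0 := by
      rw [← Measure.map_apply m3 hS.compl, h3, hμS]
    exact this
  calc (∫⁻ x, v x ∂μ) + (∫⁻ x, v x ∂μ) + (∫⁻ x, v x ∂μ)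
      = (∫⁻ x, v x ∂(π.map (fun p => p.1))) + (∫⁻ x, v x ∂(π.map (fun p => p.2.1))) +
        (∫⁻ x, v x ∂(π.map (fun p => p.2.2))) := by rw [h1, h2, h3]
    _ = ∫⁻ p, (v p.1 + v p.2.1 + v p.2.2) ∂π := by
        have w1 : Measurable fun p : X × X × X => v p.1 := hv.comp m1
        have w2 : Measurable fun p : X × X × X => v p.2.1 := hv.comp m2
        rw [lintegral_map hv m1, lintegral_map hv m2, lintegral_map hv m3,
          lintegral_add_left (f := fun p : X × X × X => v p.1 + v p.2.1) (w1.add w2),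
          lintegral_add_left w1]
    _ ≤ ∫⁻ p, cost p.1 p.2.1 p.2.2 ∂π := by
        apply lintegral_mono_ae
        filter_upwards [a1, a2, a3] with p h1 h2 h3
        exact hle _ h1 _ h2 _ h3

/-- Optimal maps live on the contact set. -/
theorem map_contact {μ : Measure X} {S : Set X} (hS : MeasurableSet S)
    (hμS : μ Sᶜ = 0) (hv : Measurable v) (hcost : Measurable fun p : X × X × X =>
      cost p.1 p.2.1 p.2.2) (hfin : ∫⁻ x, v x ∂μ ≠ ⊤)
    (hle : ∀ x ∈ S, ∀ y ∈ S, ∀ z ∈ S, v x + v y + v z ≤ cost x y z)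
    {P : X → X → X → Prop}
    (heq : ∀ x ∈ S, ∀ y ∈ S, ∀ z ∈ S, v x + v y + v z = cost x y z → P x y z)
    {T2 T3 : X → X} (hT2 : Measurable T2) (hT3 : Measurable T3)
    (h2 : μ.map T2 = μ) (h3 : μ.map T3 = μ)
    (hopt : ∫⁻ x, cost x (T2 x) (T3 x) ∂μ =
      (∫⁻ x, v x ∂μ) + (∫⁻ x, v x ∂μ) + (∫⁻ x, v x ∂μ)) :
    ∀ᵐ x ∂μ, P x (T2 x) (T3 x) := by
  have a1 : ∀ᵐ x ∂μ, x ∈ S := hμS
  have a2 : ∀ᵐ x ∂μ, T2 x ∈ S := by
    have : μ (T2 ⁻¹' Sᶜ) = 0 := by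
      rw [← Measure.map_apply hT2 hS.compl, h2, hμS]
    exact this
  have a3 : ∀ᵐ x ∂μ, T3 x ∈ S := by
    have : μ (T3 ⁻¹' Sᶜ) = 0 := by
      rw [← Measure.map_apply hT3 hS.compl, h3, hμS]
    exact this
  have e1 : ∫⁻ x, (v x + v (T2 x) + v (T3 x)) ∂μ =
      (∫⁻ x, v x ∂μ) + (∫⁻ x, v x ∂μ) + (∫⁻ x, v x ∂μ) := by
    have w2 : Measurable fun x : X => v (T2 x) := hv.comp hT2
    have f2 : ∫⁻ x, v (T2 x) ∂μ = ∫⁻ x, v x ∂μ := by
      rw [← lintegral_map hv hT2, h2]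
    have f3 : ∫⁻ x, v (T3 x) ∂μ = ∫⁻ x, v x ∂μ := by
      rw [← lintegral_map hv hT3, h3]
    rw [lintegral_add_left (f := fun x : X => v x + v (T2 x)) (hv.add w2),
      lintegral_add_left hv, f2, f3]
  have hle' : (fun x => v x + v (T2 x) + v (T3 x)) ≤ᵐ[μ] fun x => cost x (T2 x) (T3 x) := by
    filter_upwards [a1, a2, a3] with x h1 h2 h3
    exact hle _ h1 _ h2 _ h3
  have hae := ae_eq_of_ae_le_of_lintegral_le hle' (by rw [e1]; simp [hfin])
    (hcost.comp (measurable_id.prodMk (hT2.prodMk hT3))).aemeasurable (by rw [e1, hopt])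
  filter_upwards [a1, a2, a3, hae] with x h1 h2 h3 h4
  exact heq _ h1 _ h2 _ h3 h4

end coupling

/-- The pointwise consequence of contact. -/
theorem contact_cases {F : Ω × Fin 5 → X} (hF : Function.Injective F) {j k : Fin 5}
    (hjk : (j = 1 ∧ k = 2) ∨ (j = 3 ∧ k = 4)) {D : Set Ω} {x y z : X}
    (hc : Con F x y z) (hD : ∀ ω ∈ D, ∀ ω', x = F (ω, 0) →
      ¬ (y = F (ω', j) ∧ z = F (ω', k)) ∧ ¬ (z = F (ω', j) ∧ y = F (ω', k)))
    (hy : y ∈ F '' (D ×ˢ {j})) : x ∈ F '' (D ×ˢ {k}) ∧ z ∉ F '' (D ×ˢ {j}) := by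
  obtain ⟨⟨ω, l⟩, ⟨hω, hl⟩, rfl⟩ := hy
  simp only [mem_singleton_iff] at hl
  subst hl
  rcases hjk with ⟨rfl, rfl⟩ | ⟨rfl, rfl⟩
  · rcases hc with ⟨ω', h⟩ | ⟨ω', h⟩
    · rcases h with ⟨h1, h2, h3⟩ | ⟨h1, h2, h3⟩ | ⟨h1, h2, h3⟩ | ⟨h1, h2, h3⟩ | ⟨h1, h2, h3⟩ |
        ⟨h1, h2, h3⟩
      · have h4 := hF h2
        simp only [Prod.mk.injEq, and_true] at h4
        subst h4
        exact absurd ⟨rfl, h3⟩ (hD ω hω ω h1).1
      · have h4 := hF h2
        simp at h4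
      · have h4 := hF h2
        simp at h4
      · have h4 := hF h2
        simp at h4
      · have h4 := hF h2
        simp at h4
      · have h4 := hF h2
        simp only [Prod.mk.injEq, and_true] at h4
        subst h4
        refine ⟨⟨(ω, 2), ⟨hω, rfl⟩, h1.symm⟩, ?_⟩
        rw [h3, hF.mem_set_image]
        simp
    · rcases h with ⟨h1, h2, h3⟩ | ⟨h1, h2, h3⟩ | ⟨h1, h2, h3⟩ | ⟨h1, h2, h3⟩ | ⟨h1, h2, h3⟩ |
        ⟨h1, h2, h3⟩
      all_goals
        have h4 := hF h2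
        simp at h4
  · rcases hc with ⟨ω', h⟩ | ⟨ω', h⟩
    · rcases h with ⟨h1, h2, h3⟩ | ⟨h1, h2, h3⟩ | ⟨h1, h2, h3⟩ | ⟨h1, h2, h3⟩ | ⟨h1, h2, h3⟩ |
        ⟨h1, h2, h3⟩
      all_goals
        have h4 := hF h2
        simp at h4
    · rcases h with ⟨h1, h2, h3⟩ | ⟨h1, h2, h3⟩ | ⟨h1, h2, h3⟩ | ⟨h1, h2, h3⟩ | ⟨h1, h2, h3⟩ |
        ⟨h1, h2, h3⟩
      · have h4 := hF h2
        simp only [Prod.mk.injEq, and_true] at h4
        subst h4
        exact absurd ⟨rfl, h3⟩ (hD ω hω ω h1).1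
      · have h4 := hF h2
        simp at h4
      · have h4 := hF h2
        simp at h4
      · have h4 := hF h2
        simp at h4
      · have h4 := hF h2
        simp at h4
      · have h4 := hF h2
        simp only [Prod.mk.injEq, and_true] at h4
        subst h4
        refine ⟨⟨(ω, 4), ⟨hω, rfl⟩, h1.symm⟩, ?_⟩
        rw [h3, hF.mem_set_image]
        simp

theorem con_symm {F : Ω × Fin 5 → X} {x y z : X} (h : Con F x y z) : Con F x z y := by
  rcases h with ⟨ω, h⟩ | ⟨ω, h⟩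
  · left
    refine ⟨ω, ?_⟩
    tauto
  · right
    refine ⟨ω, ?_⟩
    tauto

/-- Sets of centers that avoid one family are null. -/
theorem null_of_avoid (lam : Measure Ω) [IsFiniteMeasure lam] {F : Ω × Fin 5 → X}
    (hF : MeasurableEmbedding F)
    {j k : Fin 5} (hjk : (j = 1 ∧ k = 2) ∨ (j = 3 ∧ k = 4)) {D : Set Ω} (hDm : MeasurableSet D)
    {T2 T3 : X → X} (hT2 : Measurable T2) (hT3 : Measurable T3)
    (h2 : (mix lam F).map T2 = mix lam F) (h3 : (mix lam F).map T3 = mix lam F)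
    (hcon : ∀ᵐ x ∂(mix lam F), Con F x (T2 x) (T3 x))
    (hD : ∀ ω ∈ D, ∀ ω', T2 (F (ω, 0)) ≠ F (ω', j) ∧ T2 (F (ω, 0)) ≠ F (ω', k)) :
    lam D = 0 := by
  set μ := mix lam F with hμ
  have hj : j ≠ 0 := by rcases hjk with ⟨rfl, rfl⟩ | ⟨rfl, rfl⟩ <;> decide
  have hk : k ≠ 0 := by rcases hjk with ⟨rfl, rfl⟩ | ⟨rfl, rfl⟩ <;> decide
  set U := F '' (D ×ˢ {j}) with hU
  set W := F '' (D ×ˢ {k}) with hW
  have hUm : MeasurableSet U := hF.measurableSet_image.2 (hDm.prod (MeasurableSet.singleton j))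
  have c2 : ∀ᵐ x ∂μ, T2 x ∈ U → x ∈ W ∧ T3 x ∉ U := by
    filter_upwards [hcon] with x hx hxU
    refine contact_cases hF.injective hjk hx ?_ hxU
    intro ω hω ω' hxω
    subst hxω
    exact ⟨fun h => (hD ω hω ω').1 h.1, fun h => (hD ω hω ω').2 h.2⟩
  have c3 : ∀ᵐ x ∂μ, T3 x ∈ U → x ∈ W ∧ T2 x ∉ U := by
    filter_upwards [hcon] with x hx hxU
    refine contact_cases hF.injective hjk (con_symm hx) ?_ hxU
    intro ω hω ω' hxω
    subst hxω
    exact ⟨fun h => (hD ω hω ω').2 h.2, fun h => (hD ω hω ω').1 h.1⟩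
  have i2 : μ (T2 ⁻¹' U) = μ U := by rw [← Measure.map_apply hT2 hUm, h2]
  have i3 : μ (T3 ⁻¹' U) = μ U := by rw [← Measure.map_apply hT3 hUm, h3]
  have hdisj : AEDisjoint μ (T2 ⁻¹' U) (T3 ⁻¹' U) := by
    have : ∀ᵐ x ∂μ, ¬ (x ∈ T2 ⁻¹' U ∩ T3 ⁻¹' U) := by
      filter_upwards [c2] with x hx hxU
      exact (hx hxU.1).2 hxU.2
    exact measure_eq_zero_iff_ae_notMem.2 this
  have hsub : (T2 ⁻¹' U ∪ T3 ⁻¹' U : Set X) ≤ᵐ[μ] W := by
    filter_upwards [c2, c3] with x hx2 hx3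
    intro hx
    rcases hx with hx | hx
    · exact (hx2 hx).1
    · exact (hx3 hx).1
  have h4 : μ U + μ U ≤ μ W := by
    calc μ U + μ U = μ (T2 ⁻¹' U) + μ (T3 ⁻¹' U) := by rw [i2, i3]
      _ = μ (T2 ⁻¹' U ∪ T3 ⁻¹' U) :=
          (measure_union₀ (hT3 hUm).nullMeasurableSet hdisj).symm
      _ ≤ μ W := measure_mono_ae hsub
  rw [hU, hW, hμ, mix_image lam hF hDm hj, mix_image lam hF hDm hk] at h4
  have h5 : (6 : ℝ≥0∞)⁻¹ * lam D ≠ ⊤ :=
    ENNReal.mul_ne_top (by simp) (measure_ne_top _ _)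
  have h6 : (6 : ℝ≥0∞)⁻¹ * lam D = 0 := by
    have : (6 : ℝ≥0∞)⁻¹ * lam D + (6 : ℝ≥0∞)⁻¹ * lam D ≤ (6 : ℝ≥0∞)⁻¹ * lam D + 0 := by
      simpa using h4
    have := (ENNReal.add_le_add_iff_left h5).1 this
    exact le_antisymm this bot_le
  rcases mul_eq_zero.1 h6 with h7 | h7
  · simp at h7
  · exact h7

/-- No measure preserving pair of maps lives on the contact set. -/
theorem no_maps (lam : Measure Ω) [IsProbabilityMeasure lam] {F : Ω × Fin 5 → X}
    (hF : MeasurableEmbedding F)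
    {T2 T3 : X → X} (hT2 : Measurable T2) (hT3 : Measurable T3)
    (h2 : (mix lam F).map T2 = mix lam F) (h3 : (mix lam F).map T3 = mix lam F)
    (hcon : ∀ᵐ x ∂(mix lam F), Con F x (T2 x) (T3 x)) : False := by
  set A : Set X := F '' (univ ×ˢ {1}) ∪ F '' (univ ×ˢ {2}) with hA
  have hAm : MeasurableSet A :=
    (hF.measurableSet_image.2 (MeasurableSet.univ.prod (MeasurableSet.singleton 1))).union
      (hF.measurableSet_image.2 (MeasurableSet.univ.prod (MeasurableSet.singleton 2)))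
  set D : Set Ω := {ω | T2 (F (ω, 0)) ∈ A} with hD
  have hDm : MeasurableSet D := (hT2.comp (meas_comp hF.measurable 0)) hAm
  have k1 : lam Dᶜ = 0 := by
    refine null_of_avoid lam hF (j := 1) (k := 2) (Or.inl ⟨rfl, rfl⟩) hDm.compl hT2 hT3 h2 h3
      hcon ?_
    intro ω hω ω'
    constructor
    · intro h
      exact hω (Or.inl ⟨(ω', 1), ⟨mem_univ _, rfl⟩, h.symm⟩)
    · intro h
      exact hω (Or.inr ⟨(ω', 2), ⟨mem_univ _, rfl⟩, h.symm⟩)
  have k2 : lam D = 0 := by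
    refine null_of_avoid lam hF (j := 3) (k := 4) (Or.inr ⟨rfl, rfl⟩) hDm hT2 hT3 h2 h3
      hcon ?_
    intro ω hω ω'
    have hω' : T2 (F (ω, 0)) ∈ A := hω
    constructor
    · intro h
      rcases hω' with ⟨⟨ω₁, l⟩, ⟨-, hl⟩, h'⟩ | ⟨⟨ω₁, l⟩, ⟨-, hl⟩, h'⟩
      · simp only [mem_singleton_iff] at hl
        subst hl
        have := hF.injective (h'.trans h)
        simp at this
      · simp only [mem_singleton_iff] at hl
        subst hl
        have := hF.injective (h'.trans h)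
        simp at this
    · intro h
      rcases hω' with ⟨⟨ω₁, l⟩, ⟨-, hl⟩, h'⟩ | ⟨⟨ω₁, l⟩, ⟨-, hl⟩, h'⟩
      · simp only [mem_singleton_iff] at hl
        subst hl
        have := hF.injective (h'.trans h)
        simp at this
      · simp only [mem_singleton_iff] at hl
        subst hl
        have := hF.injective (h'.trans h)
        simp at this
  have k3 : lam univ = 0 := by
    rw [← compl_union_self D]
    exact measure_union_null k1 k2
  rw [measure_univ] at k3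
  exact one_ne_zero k3

/-- The symmetrised plan. -/
theorem exists_plan (lam : Measure Ω) {F : Ω × Fin 5 → X} (hF : Measurable F)
    {cost : X → X → X → ℝ≥0∞} (hcost : Measurable fun p : X × X × X => cost p.1 p.2.1 p.2.2)
    {v : X → ℝ≥0∞} (hv : Measurable v)
    (c1 : ∀ ω, cost (F (ω, 0)) (F (ω, 1)) (F (ω, 2)) =
      v (F (ω, 0)) + v (F (ω, 1)) + v (F (ω, 2)))
    (c1' : ∀ ω, cost (F (ω, 1)) (F (ω, 2)) (F (ω, 0)) =
      v (F (ω, 0)) + v (F (ω, 1)) + v (F (ω, 2)))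
    (c1'' : ∀ ω, cost (F (ω, 2)) (F (ω, 0)) (F (ω, 1)) =
      v (F (ω, 0)) + v (F (ω, 1)) + v (F (ω, 2)))
    (c2 : ∀ ω, cost (F (ω, 0)) (F (ω, 3)) (F (ω, 4)) =
      v (F (ω, 0)) + v (F (ω, 3)) + v (F (ω, 4)))
    (c2' : ∀ ω, cost (F (ω, 3)) (F (ω, 4)) (F (ω, 0)) =
      v (F (ω, 0)) + v (F (ω, 3)) + v (F (ω, 4)))
    (c2'' : ∀ ω, cost (F (ω, 4)) (F (ω, 0)) (F (ω, 3)) =
      v (F (ω, 0)) + v (F (ω, 3)) + v (F (ω, 4))) :
    ∃ π : Measure (X × X × X), π.map (fun p => p.1) = mix lam F ∧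
      π.map (fun p => p.2.1) = mix lam F ∧ π.map (fun p => p.2.2) = mix lam F ∧
      ∫⁻ p, cost p.1 p.2.1 p.2.2 ∂π =
        (∫⁻ x, v x ∂(mix lam F)) + (∫⁻ x, v x ∂(mix lam F)) + (∫⁻ x, v x ∂(mix lam F)) := by
  have m1 : Measurable (fun p : X × X × X => p.1) := measurable_fst
  have m2 : Measurable (fun p : X × X × X => p.2.1) := measurable_fst.comp measurable_snd
  have m3 : Measurable (fun p : X × X × X => p.2.2) := measurable_snd.comp measurable_snd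
  have mf : ∀ a b c : Fin 5, Measurable (fun ω => (F (ω, a), F (ω, b), F (ω, c))) :=
    fun a b c => (meas_comp hF a).prodMk ((meas_comp hF b).prodMk (meas_comp hF c))
  refine ⟨(6 : ℝ≥0∞)⁻¹ • (lam.map (fun ω => (F (ω, 0), F (ω, 1), F (ω, 2))) +
    lam.map (fun ω => (F (ω, 1), F (ω, 2), F (ω, 0))) +
    lam.map (fun ω => (F (ω, 2), F (ω, 0), F (ω, 1))) +
    (lam.map (fun ω => (F (ω, 0), F (ω, 3), F (ω, 4))) +
    lam.map (fun ω => (F (ω, 3), F (ω, 4), F (ω, 0))) +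
    lam.map (fun ω => (F (ω, 4), F (ω, 0), F (ω, 3))))), ?_, ?_, ?_, ?_⟩
  · rw [Measure.map_smul]
    simp only [Measure.map_add _ _ m1]
    simp only [Measure.map_map m1 (mf _ _ _)]
    simp only [Function.comp_def]
    rfl
  · rw [Measure.map_smul]
    simp only [Measure.map_add _ _ m2]
    simp only [Measure.map_map m2 (mf _ _ _)]
    simp only [Function.comp_def]
    unfold mix
    congr 1
    abel
  · rw [Measure.map_smul]
    simp only [Measure.map_add _ _ m3]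
    simp only [Measure.map_map m3 (mf _ _ _)]
    simp only [Function.comp_def]
    unfold mix
    congr 1
    abel
  · rw [lintegral_smul_measure, smul_eq_mul, lintegral_mix lam hF hv]
    simp only [lintegral_add_measure]
    simp only [lintegral_map hcost (mf _ _ _)]
    simp only [c1, c1', c1'', c2, c2', c2'']
    have w : ∀ k : Fin 5, Measurable (fun ω => v (F (ω, k))) := fun k => hv.comp (meas_comp hF k)
    have s1 : ∫⁻ ω, (v (F (ω, 0)) + v (F (ω, 1)) + v (F (ω, 2))) ∂lam =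
        ∫⁻ ω, v (F (ω, 0)) ∂lam + ∫⁻ ω, v (F (ω, 1)) ∂lam + ∫⁻ ω, v (F (ω, 2)) ∂lam := by
      rw [lintegral_add_left (f := fun ω => v (F (ω, 0)) + v (F (ω, 1))) ((w 0).add (w 1)),
        lintegral_add_left (w 0)]
    have s2 : ∫⁻ ω, (v (F (ω, 0)) + v (F (ω, 3)) + v (F (ω, 4))) ∂lam =
        ∫⁻ ω, v (F (ω, 0)) ∂lam + ∫⁻ ω, v (F (ω, 3)) ∂lam + ∫⁻ ω, v (F (ω, 4)) ∂lam := by
      rw [lintegral_add_left (f := fun ω => v (F (ω, 0)) + v (F (ω, 3))) ((w 0).add (w 3)),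
        lintegral_add_left (w 0)]
    rw [s1, s2]
    ring

end Vale.Agent.P121
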