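import Mathlib

/-!
The Coulomb force field `v / |v|^3`, its inverse, Lipschitz estimates, and the quadratic lower
bound of `1/|v|`.
-/

namespace Vale.Agent.P121

open Real

variable {X : Type*} [NormedAddCommGroup X] [InnerProductSpace ℝ X]

/-- Minus the gradient of `1/|v|`. -/
noncomputable def force (v : X) : X := (‖v‖ ^ 3)⁻¹ • v

/-- The inverse of `force`. -/
noncomputable def forceInv (f : X) : X := ((√‖f‖) ^ 3)⁻¹ • f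

theorem norm_force {v : X} (hv : v ≠ 0) : ‖force v‖ = (‖v‖ ^ 2)⁻¹ := by
  have h : 0 < ‖v‖ := norm_pos_iff.2 hv
  unfold force
  rw [norm_smul, Real.norm_of_nonneg (by positivity)]
  field_simp

theorem force_neg (v : X) : force (-v) = - force v := by
  unfold force
  rw [norm_neg, smul_neg]

theorem norm_forceInv {f : X} (hf : f ≠ 0) : ‖forceInv f‖ = (√‖f‖)⁻¹ := by
  have h : 0 < ‖f‖ := norm_pos_iff.2 hf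
  have hs : 0 < √‖f‖ := Real.sqrt_pos.2 h
  have hs2 : (√‖f‖) ^ 2 = ‖f‖ := Real.sq_sqrt h.le
  unfold forceInv
  rw [norm_smul, Real.norm_of_nonneg (by positivity)]
  nth_rewrite 2 [← hs2]
  field_simp

theorem force_forceInv {f : X} (hf : f ≠ 0) : force (forceInv f) = f := by
  have h : 0 < ‖f‖ := norm_pos_iff.2 hf
  have hs : 0 < √‖f‖ := Real.sqrt_pos.2 h
  unfold force
  rw [norm_forceInv hf]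
  unfold forceInv
  rw [smul_smul]
  have : ((√‖f‖)⁻¹ ^ 3)⁻¹ * ((√‖f‖) ^ 3)⁻¹ = 1 := by
    field_simp
  rw [this, one_smul]

theorem forceInv_force {v : X} (hv : v ≠ 0) : forceInv (force v) = v := by
  have h : 0 < ‖v‖ := norm_pos_iff.2 hv
  unfold forceInv
  rw [norm_force hv]
  have h1 : √((‖v‖ ^ 2)⁻¹) = ‖v‖⁻¹ := by
    rw [← inv_pow, Real.sqrt_sq (by positivity)]
  rw [h1]
  unfold force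
  rw [smul_smul]
  have : ((‖v‖⁻¹) ^ 3)⁻¹ * (‖v‖ ^ 3)⁻¹ = 1 := by
    field_simp
  rw [this, one_smul]

theorem force_lip {δ : ℝ} (hδ : 0 < δ) {v w : X} (hv : δ ≤ ‖v‖) (hw : δ ≤ ‖w‖) :
    ‖force v - force w‖ ≤ 4 / δ ^ 3 * ‖v - w‖ := by
  have hv0 : 0 < ‖v‖ := lt_of_lt_of_le hδ hv
  have hw0 : 0 < ‖w‖ := lt_of_lt_of_le hδ hw
  have e1 : force v - force w = (‖v‖ ^ 3)⁻¹ • (v - w) + ((‖v‖ ^ 3)⁻¹ - (‖w‖ ^ 3)⁻¹) • w := by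
    unfold force
    rw [smul_sub, sub_smul]
    abel
  have e2 : |(‖v‖ ^ 3)⁻¹ - (‖w‖ ^ 3)⁻¹| * ‖w‖ =
      |‖w‖ - ‖v‖| * ((‖v‖ ^ 3)⁻¹ + (‖v‖ ^ 2)⁻¹ * ‖w‖⁻¹ + ‖v‖⁻¹ * (‖w‖ ^ 2)⁻¹) := by
    have : (‖v‖ ^ 3)⁻¹ - (‖w‖ ^ 3)⁻¹ =
      (‖w‖ - ‖v‖) * (((‖v‖ ^ 3)⁻¹ + (‖v‖ ^ 2)⁻¹ * ‖w‖⁻¹ + ‖v‖⁻¹ * (‖w‖ ^ 2)⁻¹) * ‖w‖⁻¹) := by
      field_simp
      ring
    rw [this, abs_mul, abs_of_nonneg (a := ((‖v‖ ^ 3)⁻¹ + (‖v‖ ^ 2)⁻¹ * ‖w‖⁻¹ +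
      ‖v‖⁻¹ * (‖w‖ ^ 2)⁻¹) * ‖w‖⁻¹) (by positivity)]
    field_simp
  have e3 : |‖w‖ - ‖v‖| ≤ ‖v - w‖ := by
    rw [abs_sub_comm]
    exact abs_norm_sub_norm_le v w
  have i1 : (‖v‖ ^ 3)⁻¹ ≤ (δ ^ 3)⁻¹ := by
    apply inv_anti₀ (by positivity)
    gcongr
  have iv : ‖v‖⁻¹ ≤ δ⁻¹ := inv_anti₀ hδ hv
  have iw : ‖w‖⁻¹ ≤ δ⁻¹ := inv_anti₀ hδ hw
  have i2 : (‖v‖ ^ 2)⁻¹ * ‖w‖⁻¹ ≤ (δ ^ 3)⁻¹ := by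
    have : (‖v‖ ^ 2)⁻¹ * ‖w‖⁻¹ ≤ (δ⁻¹) ^ 2 * δ⁻¹ := by
      rw [← inv_pow]
      gcongr
    calc _ ≤ _ := this
      _ = _ := by field_simp
  have i3 : ‖v‖⁻¹ * (‖w‖ ^ 2)⁻¹ ≤ (δ ^ 3)⁻¹ := by
    have : ‖v‖⁻¹ * (‖w‖ ^ 2)⁻¹ ≤ δ⁻¹ * (δ⁻¹) ^ 2 := by
      rw [← inv_pow]
      gcongr
    calc _ ≤ _ := this
      _ = _ := by field_simp
  calc ‖force v - force w‖
      ≤ ‖(‖v‖ ^ 3)⁻¹ • (v - w)‖ + ‖((‖v‖ ^ 3)⁻¹ - (‖w‖ ^ 3)⁻¹) • w‖ := by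
        rw [e1]; exact norm_add_le _ _
    _ = (‖v‖ ^ 3)⁻¹ * ‖v - w‖ + |(‖v‖ ^ 3)⁻¹ - (‖w‖ ^ 3)⁻¹| * ‖w‖ := by
        rw [norm_smul, norm_smul, Real.norm_of_nonneg (r := (‖v‖ ^ 3)⁻¹) (by positivity),
          Real.norm_eq_abs]
    _ = (‖v‖ ^ 3)⁻¹ * ‖v - w‖ + |‖w‖ - ‖v‖| *
        ((‖v‖ ^ 3)⁻¹ + (‖v‖ ^ 2)⁻¹ * ‖w‖⁻¹ + ‖v‖⁻¹ * (‖w‖ ^ 2)⁻¹) := by rw [e2]
    _ ≤ (δ ^ 3)⁻¹ * ‖v - w‖ + ‖v - w‖ * ((δ ^ 3)⁻¹ + (δ ^ 3)⁻¹ + (δ ^ 3)⁻¹) := by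
        gcongr
    _ = 4 / δ ^ 3 * ‖v - w‖ := by
        field_simp
        ring

theorem forceInv_lip {δ : ℝ} (hδ : 0 < δ) {f g : X} (hf : δ ^ 2 ≤ ‖f‖) (hg : δ ^ 2 ≤ ‖g‖) :
    ‖forceInv f - forceInv g‖ ≤ 3 / δ ^ 3 * ‖f - g‖ := by
  set s := √‖f‖ with hs
  set t := √‖g‖ with ht
  have hs1 : δ ≤ s := Real.le_sqrt_of_sq_le hf
  have ht1 : δ ≤ t := Real.le_sqrt_of_sq_le hg
  have hs0 : 0 < s := lt_of_lt_of_le hδ hs1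
  have ht0 : 0 < t := lt_of_lt_of_le hδ ht1
  have hs2 : s ^ 2 = ‖f‖ := Real.sq_sqrt (norm_nonneg _)
  have ht2 : t ^ 2 = ‖g‖ := Real.sq_sqrt (norm_nonneg _)
  have e1 : forceInv f - forceInv g = (s ^ 3)⁻¹ • (f - g) + ((s ^ 3)⁻¹ - (t ^ 3)⁻¹) • g := by
    unfold forceInv
    rw [smul_sub, sub_smul]
    abel
  have e2 : |(s ^ 3)⁻¹ - (t ^ 3)⁻¹| * ‖g‖ =
      |t ^ 2 - s ^ 2| * ((t ^ 2 + t * s + s ^ 2) / (s ^ 3 * t * (s + t))) := by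
    have : (s ^ 3)⁻¹ - (t ^ 3)⁻¹ =
      (t ^ 2 - s ^ 2) * (((t ^ 2 + t * s + s ^ 2) / (s ^ 3 * t * (s + t))) * (t ^ 2)⁻¹) := by
      field_simp
      ring
    rw [this, abs_mul, abs_of_nonneg (a := ((t ^ 2 + t * s + s ^ 2) / (s ^ 3 * t * (s + t))) *
      (t ^ 2)⁻¹) (by positivity), ← ht2]
    field_simp
  have e3 : |t ^ 2 - s ^ 2| ≤ ‖f - g‖ := by
    rw [hs2, ht2, abs_sub_comm]
    exact abs_norm_sub_norm_le f g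
  have is : s⁻¹ ≤ δ⁻¹ := inv_anti₀ hδ hs1
  have it : t⁻¹ ≤ δ⁻¹ := inv_anti₀ hδ ht1
  have i1 : (s ^ 3)⁻¹ ≤ (δ ^ 3)⁻¹ := by
    apply inv_anti₀ (by positivity)
    gcongr
  have i2 : (t ^ 2 + t * s + s ^ 2) / (s ^ 3 * t * (s + t)) ≤ 2 * (δ ^ 3)⁻¹ := by
    have h1 : (t ^ 2 + t * s + s ^ 2) / (s ^ 3 * t * (s + t)) ≤ (s ^ 3)⁻¹ + (s ^ 2)⁻¹ * t⁻¹ := by
      rw [div_le_iff₀ (by positivity)]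
      have : ((s ^ 3)⁻¹ + (s ^ 2)⁻¹ * t⁻¹) * (s ^ 3 * t * (s + t)) = (s + t) ^ 2 := by
        field_simp
        ring
      rw [this]
      nlinarith [mul_pos hs0 ht0]
    have h2 : (s ^ 2)⁻¹ * t⁻¹ ≤ (δ ^ 3)⁻¹ := by
      have : (s ^ 2)⁻¹ * t⁻¹ ≤ (δ⁻¹) ^ 2 * δ⁻¹ := by
        rw [← inv_pow]
        gcongr
      calc _ ≤ _ := this
        _ = _ := by field_simp
    linarith
  calc ‖forceInv f - forceInv g‖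
      ≤ ‖(s ^ 3)⁻¹ • (f - g)‖ + ‖((s ^ 3)⁻¹ - (t ^ 3)⁻¹) • g‖ := by
        rw [e1]; exact norm_add_le _ _
    _ = (s ^ 3)⁻¹ * ‖f - g‖ + |(s ^ 3)⁻¹ - (t ^ 3)⁻¹| * ‖g‖ := by
        rw [norm_smul, norm_smul, Real.norm_of_nonneg (r := (s ^ 3)⁻¹) (by positivity),
          Real.norm_eq_abs]
    _ = (s ^ 3)⁻¹ * ‖f - g‖ + |t ^ 2 - s ^ 2| *
        ((t ^ 2 + t * s + s ^ 2) / (s ^ 3 * t * (s + t))) := by rw [e2]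
    _ ≤ (δ ^ 3)⁻¹ * ‖f - g‖ + ‖f - g‖ * (2 * (δ ^ 3)⁻¹) := by
        gcongr
    _ = 3 / δ ^ 3 * ‖f - g‖ := by
        field_simp
        ring

/-- The quadratic lower bound of the Coulomb kernel. -/
theorem key_ineq {v w : X} (hv : v ≠ 0) (hw : w ≠ 0) :
    ‖v‖⁻¹ - inner ℝ (force v) (w - v) - ‖w - v‖ ^ 2 / (2 * ‖v‖ ^ 3) ≤ ‖w‖⁻¹ := by
  have hv0 : 0 < ‖v‖ := norm_pos_iff.2 hv
  have hw0 : 0 < ‖w‖ := norm_pos_iff.2 hw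
  have e1 : inner ℝ (force v) (w - v) = (‖v‖ ^ 3)⁻¹ * (inner ℝ v w - ‖v‖ ^ 2) := by
    unfold force
    rw [real_inner_smul_left, inner_sub_right, real_inner_self_eq_norm_sq]
  have e2 : ‖w - v‖ ^ 2 = ‖w‖ ^ 2 - 2 * inner ℝ v w + ‖v‖ ^ 2 := by
    rw [norm_sub_sq_real, real_inner_comm]
  rw [e1, e2]
  have e3 : ‖v‖⁻¹ - (‖v‖ ^ 3)⁻¹ * (inner ℝ v w - ‖v‖ ^ 2) -
      (‖w‖ ^ 2 - 2 * inner ℝ v w + ‖v‖ ^ 2) / (2 * ‖v‖ ^ 3) =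
      (3 * ‖v‖ ^ 2 - ‖w‖ ^ 2) / (2 * ‖v‖ ^ 3) := by
    field_simp
    ring
  rw [e3, div_le_iff₀ (by positivity)]
  have e4 : ‖w‖⁻¹ * (2 * ‖v‖ ^ 3) = (2 * ‖v‖ ^ 3) / ‖w‖ := by
    field_simp
  rw [e4, le_div_iff₀ hw0]
  nlinarith [mul_nonneg (sq_nonneg (‖w‖ - ‖v‖)) (by positivity : (0:ℝ) ≤ ‖w‖ + 2 * ‖v‖)]

end Vale.Agent.P121
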