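import Mathlib
import Vale.Agent.P121.Force

/-!
The contact equations and their solution near `(0, e, -e)`.
-/

namespace Vale.Agent.P121

open Real

variable {X : Type*} [NormedAddCommGroup X] [InnerProductSpace ℝ X]

/-- The contact equations. -/
def Contact (e a b c : X) : Prop :=
  ‖b - e‖ ≤ 1 / 100000 ∧ ‖c + e‖ ≤ 1 / 100 ∧
    force (a - b) + force (a - c) = (10000 : ℝ) • a ∧
    force (b - a) + force (b - c) = (5 / 4 : ℝ) • e + (10000 : ℝ) • (b - e)

/-- Lipschitz bound with constant 8 away from the ball of radius 4/5. -/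
theorem force_lip8 {v w : X} (hv : 4 / 5 ≤ ‖v‖) (hw : 4 / 5 ≤ ‖w‖) :
    ‖force v - force w‖ ≤ 8 * ‖v - w‖ := by
  refine (force_lip (by norm_num) hv hw).trans ?_
  gcongr
  norm_num

theorem forceInv_lip6 {v w : X} (hv : 16 / 25 ≤ ‖v‖) (hw : 16 / 25 ≤ ‖w‖) :
    ‖forceInv v - forceInv w‖ ≤ 6 * ‖v - w‖ := by
  refine (forceInv_lip (δ := 4 / 5) (by norm_num) (by linarith) (by linarith)).trans ?_
  gcongr
  norm_num

theorem forceInv_lip33 {v w : X} (hv : 81 / 400 ≤ ‖v‖) (hw : 81 / 400 ≤ ‖w‖) :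
    ‖forceInv v - forceInv w‖ ≤ 33 * ‖v - w‖ := by
  refine (forceInv_lip (δ := 9 / 20) (by norm_num) (by linarith) (by linarith)).trans ?_
  gcongr
  norm_num

theorem norm_ba_ge {e a b : X} (he : ‖e‖ = 1) (ha : ‖a‖ ≤ 1 / 10000000)
    (hb : ‖b - e‖ ≤ 1 / 100000) : 99 / 100 ≤ ‖b - a‖ := by
  have h : ‖e‖ ≤ ‖b - a‖ + ‖b - e‖ + ‖a‖ := by
    calc ‖e‖ = ‖(b - a) - (b - e) + a‖ := by congr 1; abel
      _ ≤ ‖(b - a) - (b - e)‖ + ‖a‖ := norm_add_le _ _
      _ ≤ _ := by gcongr; exact norm_sub_le _ _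
  linarith

theorem norm_ba_le {e a b : X} (he : ‖e‖ = 1) (ha : ‖a‖ ≤ 1 / 10000000)
    (hb : ‖b - e‖ ≤ 1 / 100000) : ‖b - a‖ ≤ 10001 / 10000 := by
  have h : ‖b - a‖ ≤ ‖e‖ + ‖b - e‖ + ‖a‖ := by
    calc ‖b - a‖ = ‖e + (b - e) - a‖ := by congr 1; abel
      _ ≤ ‖e + (b - e)‖ + ‖a‖ := norm_sub_le _ _
      _ ≤ _ := by gcongr; exact norm_add_le _ _
  linarith

theorem norm_ac_ge {e a c : X} (he : ‖e‖ = 1) (ha : ‖a‖ ≤ 1 / 10000000)
    (hc : ‖c + e‖ ≤ 1 / 100) : 98 / 100 ≤ ‖a - c‖ := by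
  have h : ‖e‖ ≤ ‖a - c‖ + ‖c + e‖ + ‖a‖ := by
    calc ‖e‖ = ‖(a - c) + (c + e) - a‖ := by congr 1; abel
      _ ≤ ‖(a - c) + (c + e)‖ + ‖a‖ := norm_sub_le _ _
      _ ≤ _ := by gcongr; exact norm_add_le _ _
  linarith

theorem norm_ac_le {e a c : X} (he : ‖e‖ = 1) (ha : ‖a‖ ≤ 1 / 10000000)
    (hc : ‖c + e‖ ≤ 1 / 100) : ‖a - c‖ ≤ 102 / 100 := by
  have h : ‖a - c‖ ≤ ‖e‖ + ‖c + e‖ + ‖a‖ := by
    calc ‖a - c‖ = ‖e - (c + e) + a‖ := by congr 1; abel
      _ ≤ ‖e - (c + e)‖ + ‖a‖ := norm_add_le _ _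
      _ ≤ _ := by gcongr; exact norm_sub_le _ _
  linarith

theorem norm_bc_ge {e b c : X} (he : ‖e‖ = 1)
    (hb : ‖b - e‖ ≤ 1 / 100000) (hc : ‖c + e‖ ≤ 1 / 100) : 198 / 100 ≤ ‖b - c‖ := by
  have h : ‖(2 : ℝ) • e‖ ≤ ‖b - c‖ + ‖b - e‖ + ‖c + e‖ := by
    calc ‖(2 : ℝ) • e‖ = ‖(b - c) - (b - e) + (c + e)‖ := by
          congr 1; rw [two_smul]; abel
      _ ≤ ‖(b - c) - (b - e)‖ + ‖c + e‖ := norm_add_le _ _
      _ ≤ _ := by gcongr; exact norm_sub_le _ _
  rw [norm_smul, he] at h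
  norm_num at h
  linarith

theorem norm_bc_le {e b c : X} (he : ‖e‖ = 1)
    (hb : ‖b - e‖ ≤ 1 / 100000) (hc : ‖c + e‖ ≤ 1 / 100) : ‖b - c‖ ≤ 202 / 100 := by
  have h : ‖b - c‖ ≤ ‖(2 : ℝ) • e‖ + ‖b - e‖ + ‖c + e‖ := by
    calc ‖b - c‖ = ‖(2 : ℝ) • e + (b - e) - (c + e)‖ := by
          congr 1; rw [two_smul]; abel
      _ ≤ ‖(2 : ℝ) • e + (b - e)‖ + ‖c + e‖ := norm_sub_le _ _
      _ ≤ _ := by gcongr; exact norm_add_le _ _
  rw [norm_smul, he] at h
  norm_num at h
  linarith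

theorem force_unit {e : X} (he : ‖e‖ = 1) : force e = e := by
  unfold force; rw [he]; norm_num

theorem force_two_unit {e : X} (he : ‖e‖ = 1) : force ((2 : ℝ) • e) = (1 / 4 : ℝ) • e := by
  unfold force; rw [norm_smul, he, smul_smul]; norm_num

/-- The third point as a function of the first two. -/
noncomputable def cfun (a b : X) : X := a - forceInv ((10000 : ℝ) • a + force (b - a))

theorem force_ba_ge {e a b : X} (he : ‖e‖ = 1) (ha : ‖a‖ ≤ 1 / 10000000)
    (hb : ‖b - e‖ ≤ 1 / 100000) : 16 / 25 ≤ ‖(10000 : ℝ) • a + force (b - a)‖ := by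
  have h1 := norm_ba_ge he ha hb
  have h2 := norm_ba_le he ha hb
  have hne : b - a ≠ 0 := by
    intro h; rw [h, norm_zero] at h1; norm_num at h1
  have h3 : 98 / 100 ≤ ‖force (b - a)‖ := by
    rw [norm_force hne, le_inv_comm₀ (by norm_num) (by positivity)]
    nlinarith [norm_nonneg (b - a)]
  have h4 : ‖force (b - a)‖ ≤ ‖(10000 : ℝ) • a + force (b - a)‖ + ‖(10000 : ℝ) • a‖ := by
    calc ‖force (b - a)‖ = ‖((10000 : ℝ) • a + force (b - a)) - (10000 : ℝ) • a‖ := by
          congr 1; abel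
      _ ≤ _ := norm_sub_le _ _
  rw [norm_smul] at h4
  norm_num at h4
  linarith

theorem cfun_lip {e a b b' : X} (he : ‖e‖ = 1) (ha : ‖a‖ ≤ 1 / 10000000)
    (hb : ‖b - e‖ ≤ 1 / 100000) (hb' : ‖b' - e‖ ≤ 1 / 100000) :
    ‖cfun a b - cfun a b'‖ ≤ 48 * ‖b - b'‖ := by
  have h1 := forceInv_lip6 (force_ba_ge he ha hb) (force_ba_ge he ha hb')
  have h2 := force_lip8 (v := b - a) (w := b' - a) (by linarith [norm_ba_ge he ha hb])
    (by linarith [norm_ba_ge he ha hb'])
  have e1 : cfun a b - cfun a b' = -(forceInv ((10000 : ℝ) • a + force (b - a)) -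
      forceInv ((10000 : ℝ) • a + force (b' - a))) := by
    unfold cfun; abel
  have e2 : (10000 : ℝ) • a + force (b - a) - ((10000 : ℝ) • a + force (b' - a)) =
      force (b - a) - force (b' - a) := by abel
  have e3 : b - a - (b' - a) = b - b' := by abel
  rw [e1, norm_neg]
  rw [e2] at h1
  rw [e3] at h2
  linarith

theorem cfun_near {e a b : X} (he : ‖e‖ = 1) (ha : ‖a‖ ≤ 1 / 10000000)
    (hb : ‖b - e‖ ≤ 1 / 100000) : ‖cfun a b + e‖ ≤ 1 / 100 := by
  have hfe : forceInv (force e) = e :=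
    forceInv_force (by intro h; rw [h, norm_zero] at he; norm_num at he)
  have h1 := forceInv_lip6 (v := (10000 : ℝ) • a + force (b - a)) (w := force e)
    (force_ba_ge he ha hb) (by rw [force_unit he, he]; norm_num)
  have h2 := force_lip8 (v := b - a) (w := e) (by linarith [norm_ba_ge he ha hb])
    (by rw [he]; norm_num)
  rw [hfe] at h1
  have e1 : cfun a b + e = a - (forceInv ((10000 : ℝ) • a + force (b - a)) - e) := by
    unfold cfun; abel
  have h3 : ‖cfun a b + e‖ ≤ ‖a‖ + ‖forceInv ((10000 : ℝ) • a + force (b - a)) - e‖ := by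
    rw [e1]; exact norm_sub_le _ _
  have h4 : ‖(10000 : ℝ) • a + force (b - a) - force e‖ ≤
      10000 * ‖a‖ + ‖force (b - a) - force e‖ := by
    calc ‖(10000 : ℝ) • a + force (b - a) - force e‖
        = ‖(10000 : ℝ) • a + (force (b - a) - force e)‖ := by congr 1; abel
      _ ≤ ‖(10000 : ℝ) • a‖ + ‖force (b - a) - force e‖ := norm_add_le _ _
      _ = _ := by rw [norm_smul]; norm_num
  have h5 : ‖b - a - e‖ ≤ ‖b - e‖ + ‖a‖ := by
    calc ‖b - a - e‖ = ‖(b - e) - a‖ := by congr 1; abel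
      _ ≤ _ := norm_sub_le _ _
  linarith

theorem exists_contact [CompleteSpace X] {e a : X} (he : ‖e‖ = 1) (ha : ‖a‖ ≤ 1 / 10000000) :
    ∃ b c : X, Contact e a b c := by
  set Φ : X → X := fun b => e + (1 / 10000 : ℝ) •
    (force (b - a) + force (b - cfun a b) - (5 / 4 : ℝ) • e) with hΦ
  set s : Set X := Metric.closedBall e (1 / 100000) with hs
  have mem_s : ∀ b : X, b ∈ s ↔ ‖b - e‖ ≤ 1 / 100000 := by
    intro b; rw [hs, Metric.mem_closedBall, dist_eq_norm]
  have hsc : IsComplete s := Metric.isClosed_closedBall.isComplete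
  have hmaps : Set.MapsTo Φ s s := by
    intro b hb
    rw [mem_s] at hb ⊢
    have h1 := force_lip8 (v := b - a) (w := e) (by linarith [norm_ba_ge he ha hb])
      (by rw [he]; norm_num)
    have hc := cfun_near he ha hb
    have h2 := force_lip8 (v := b - cfun a b) (w := (2 : ℝ) • e)
      (by linarith [norm_bc_ge he hb hc]) (by rw [norm_smul, he]; norm_num)
    have e1 : Φ b - e = (1 / 10000 : ℝ) •
        ((force (b - a) - force e) + (force (b - cfun a b) - force ((2 : ℝ) • e))) := by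
      rw [hΦ, force_unit he, force_two_unit he]
      simp only
      module
    rw [e1, norm_smul]
    have h3 : ‖(force (b - a) - force e) + (force (b - cfun a b) - force ((2 : ℝ) • e))‖ ≤
      ‖force (b - a) - force e‖ + ‖force (b - cfun a b) - force ((2 : ℝ) • e)‖ :=
      norm_add_le _ _
    have h4 : ‖b - a - e‖ ≤ ‖b - e‖ + ‖a‖ := by
      calc ‖b - a - e‖ = ‖(b - e) - a‖ := by congr 1; abel
        _ ≤ _ := norm_sub_le _ _
    have h5 : ‖b - cfun a b - (2 : ℝ) • e‖ ≤ ‖b - e‖ + ‖cfun a b + e‖ := by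
      calc ‖b - cfun a b - (2 : ℝ) • e‖ = ‖(b - e) - (cfun a b + e)‖ := by
            congr 1; module
        _ ≤ _ := norm_sub_le _ _
    norm_num
    linarith
  have hlip : ContractingWith (1 / 2) (hmaps.restrict Φ s s) := by
    refine ⟨by rw [← NNReal.coe_lt_coe]; norm_num, ?_⟩
    apply LipschitzWith.of_dist_le_mul
    rintro ⟨b, hb⟩ ⟨b', hb'⟩
    rw [mem_s] at hb hb'
    rw [Subtype.dist_eq, Subtype.dist_eq, dist_eq_norm, dist_eq_norm]
    simp only [Set.MapsTo.val_restrict_apply]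
    have hc := cfun_near he ha hb
    have hc' := cfun_near he ha hb'
    have h1 := force_lip8 (v := b - a) (w := b' - a) (by linarith [norm_ba_ge he ha hb])
      (by linarith [norm_ba_ge he ha hb'])
    have h2 := force_lip8 (v := b - cfun a b) (w := b' - cfun a b')
      (by linarith [norm_bc_ge he hb hc]) (by linarith [norm_bc_ge he hb' hc'])
    have h3 := cfun_lip he ha hb hb'
    have e1 : Φ b - Φ b' = (1 / 10000 : ℝ) •
        ((force (b - a) - force (b' - a)) + (force (b - cfun a b) - force (b' - cfun a b'))) := by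
      rw [hΦ]
      simp only
      module
    have e2 : b - a - (b' - a) = b - b' := by abel
    rw [e2] at h1
    have h4 : ‖b - cfun a b - (b' - cfun a b')‖ ≤ ‖b - b'‖ + ‖cfun a b - cfun a b'‖ := by
      calc ‖b - cfun a b - (b' - cfun a b')‖ = ‖(b - b') - (cfun a b - cfun a b')‖ := by
            congr 1; abel
        _ ≤ _ := norm_sub_le _ _
    have h5 : ‖(force (b - a) - force (b' - a)) +
        (force (b - cfun a b) - force (b' - cfun a b'))‖ ≤
      ‖force (b - a) - force (b' - a)‖ + ‖force (b - cfun a b) - force (b' - cfun a b')‖ :=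
      norm_add_le _ _
    rw [e1, norm_smul]
    norm_num
    have := norm_nonneg (b - b')
    linarith
  have hes : e ∈ s := by rw [mem_s]; simp
  obtain ⟨b, hb, hfix, -⟩ := hlip.exists_fixedPoint' hsc hmaps hes (edist_ne_top _ _)
  rw [mem_s] at hb
  refine ⟨b, cfun a b, hb, cfun_near he ha hb, ?_, ?_⟩
  · have hg := force_ba_ge he ha hb
    have hgne : (10000 : ℝ) • a + force (b - a) ≠ 0 := by
      intro h; rw [h, norm_zero] at hg; norm_num at hg
    have e1 : a - cfun a b = forceInv ((10000 : ℝ) • a + force (b - a)) := by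
      unfold cfun; abel
    rw [e1, force_forceInv hgne]
    have : force (a - b) = - force (b - a) := by
      rw [← force_neg]; congr 1; abel
    rw [this]
    abel
  · have h1 : b - e = (1 / 10000 : ℝ) •
      (force (b - a) + force (b - cfun a b) - (5 / 4 : ℝ) • e) := by
      have : b = Φ b := hfix.symm
      have h2 : b - e = Φ b - e := by rw [← this]
      rw [h2, hΦ]
      simp only
      abel
    rw [h1]
    module

/-- Raw comparison inequalities for two contact triples. -/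
theorem contact_compare {e a b c a' b' c' : X} (he : ‖e‖ = 1)
    (ha : ‖a‖ ≤ 1 / 10000000) (ha' : ‖a'‖ ≤ 1 / 10000000)
    (h : Contact e a b c) (h' : Contact e a' b' c') :
    10000 * ‖a - a'‖ ≤ 8 * (‖a - a'‖ + ‖b - b'‖) + 8 * (‖a - a'‖ + ‖c - c'‖) ∧
    10000 * ‖b - b'‖ ≤ 8 * (‖a - a'‖ + ‖b - b'‖) + 8 * (‖b - b'‖ + ‖c - c'‖) ∧
    ‖c - c'‖ ≤ ‖b - b'‖ + 33 * (10000 * ‖b - b'‖ + 8 * (‖a - a'‖ + ‖b - b'‖)) ∧
    ‖c - c'‖ ≤ ‖a - a'‖ + 6 * (10000 * ‖a - a'‖ + 8 * (‖a - a'‖ + ‖b - b'‖)) := by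
  obtain ⟨hb, hc, h1, h2⟩ := h
  obtain ⟨hb', hc', h1', h2'⟩ := h'
  have hba := norm_ba_ge he ha hb
  have hba' := norm_ba_ge he ha' hb'
  have hac := norm_ac_ge he ha hc
  have hac' := norm_ac_ge he ha' hc'
  have hbc := norm_bc_ge he hb hc
  have hbc' := norm_bc_ge he hb' hc'
  have n1 : ‖b - a - (b' - a')‖ ≤ ‖a - a'‖ + ‖b - b'‖ := by
    calc ‖b - a - (b' - a')‖ = ‖(b - b') - (a - a')‖ := by congr 1; abel
      _ ≤ _ := norm_sub_le _ _
      _ = _ := add_comm _ _
  have n2 : ‖a - c - (a' - c')‖ ≤ ‖a - a'‖ + ‖c - c'‖ := by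
    calc ‖a - c - (a' - c')‖ = ‖(a - a') - (c - c')‖ := by congr 1; abel
      _ ≤ _ := norm_sub_le _ _
  have n3 : ‖b - c - (b' - c')‖ ≤ ‖b - b'‖ + ‖c - c'‖ := by
    calc ‖b - c - (b' - c')‖ = ‖(b - b') - (c - c')‖ := by congr 1; abel
      _ ≤ _ := norm_sub_le _ _
  have l1 : ‖force (b - a) - force (b' - a')‖ ≤ 8 * (‖a - a'‖ + ‖b - b'‖) :=
    (force_lip8 (by linarith) (by linarith)).trans (by linarith)
  have l2 : ‖force (a - c) - force (a' - c')‖ ≤ 8 * (‖a - a'‖ + ‖c - c'‖) :=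
    (force_lip8 (by linarith) (by linarith)).trans (by linarith)
  have l3 : ‖force (b - c) - force (b' - c')‖ ≤ 8 * (‖b - b'‖ + ‖c - c'‖) :=
    (force_lip8 (by linarith) (by linarith)).trans (by linarith)
  have f1 : force (a - b) = - force (b - a) := by
    rw [← force_neg]; congr 1; abel
  have f1' : force (a' - b') = - force (b' - a') := by
    rw [← force_neg]; congr 1; abel
  rw [f1] at h1
  rw [f1'] at h1'
  have nac : a - c ≠ 0 := by intro h; rw [h, norm_zero] at hac; norm_num at hac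
  have nac' : a' - c' ≠ 0 := by intro h; rw [h, norm_zero] at hac'; norm_num at hac'
  have nbc : b - c ≠ 0 := by intro h; rw [h, norm_zero] at hbc; norm_num at hbc
  have nbc' : b' - c' ≠ 0 := by intro h; rw [h, norm_zero] at hbc'; norm_num at hbc'
  have norm10 : ∀ v : X, ‖(10000 : ℝ) • v‖ = 10000 * ‖v‖ := by
    intro v; rw [norm_smul]; norm_num
  have fac : 16 / 25 ≤ ‖force (a - c)‖ := by
    rw [norm_force nac, le_inv_comm₀ (by norm_num) (by positivity)]
    have := norm_ac_le he ha hc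
    nlinarith [norm_nonneg (a - c)]
  have fac' : 16 / 25 ≤ ‖force (a' - c')‖ := by
    rw [norm_force nac', le_inv_comm₀ (by norm_num) (by positivity)]
    have := norm_ac_le he ha' hc'
    nlinarith [norm_nonneg (a' - c')]
  have fbc : 81 / 400 ≤ ‖force (b - c)‖ := by
    rw [norm_force nbc, le_inv_comm₀ (by norm_num) (by positivity)]
    have := norm_bc_le he hb hc
    nlinarith [norm_nonneg (b - c)]
  have fbc' : 81 / 400 ≤ ‖force (b' - c')‖ := by
    rw [norm_force nbc', le_inv_comm₀ (by norm_num) (by positivity)]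
    have := norm_bc_le he hb' hc'
    nlinarith [norm_nonneg (b' - c')]
  have e1 : (10000 : ℝ) • (a - a') =
      -(force (b - a) - force (b' - a')) + (force (a - c) - force (a' - c')) := by
    rw [smul_sub, ← h1, ← h1']; abel
  have e2 : (10000 : ℝ) • (b - b') =
      (force (b - a) - force (b' - a')) + (force (b - c) - force (b' - c')) := by
    have : (10000 : ℝ) • (b - b') = ((5 / 4 : ℝ) • e + (10000 : ℝ) • (b - e)) -
      ((5 / 4 : ℝ) • e + (10000 : ℝ) • (b' - e)) := by module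
    rw [this, ← h2, ← h2']; abel
  refine ⟨?_, ?_, ?_, ?_⟩
  · rw [← norm10, e1]
    refine (norm_add_le _ _).trans ?_
    rw [norm_neg]
    linarith
  · rw [← norm10, e2]
    refine (norm_add_le _ _).trans ?_
    linarith
  · have e3 : c - c' = (b - b') - (forceInv (force (b - c)) - forceInv (force (b' - c'))) := by
      rw [forceInv_force nbc, forceInv_force nbc']; abel
    have e4 : force (b - c) - force (b' - c') =
        (10000 : ℝ) • (b - b') - (force (b - a) - force (b' - a')) := by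
      rw [e2]; abel
    have l4 := forceInv_lip33 fbc fbc'
    rw [e4] at l4
    have l5 : ‖(10000 : ℝ) • (b - b') - (force (b - a) - force (b' - a'))‖ ≤
        10000 * ‖b - b'‖ + ‖force (b - a) - force (b' - a')‖ := by
      rw [← norm10]; exact norm_sub_le _ _
    have l6 : ‖c - c'‖ ≤ ‖b - b'‖ + ‖forceInv (force (b - c)) - forceInv (force (b' - c'))‖ := by
      rw [e3]; exact norm_sub_le _ _
    linarith
  · have e3 : c - c' = (a - a') - (forceInv (force (a - c)) - forceInv (force (a' - c'))) := by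
      rw [forceInv_force nac, forceInv_force nac']; abel
    have e4 : force (a - c) - force (a' - c') =
        (10000 : ℝ) • (a - a') + (force (b - a) - force (b' - a')) := by
      rw [e1]; abel
    have l4 := forceInv_lip6 fac fac'
    rw [e4] at l4
    have l5 : ‖(10000 : ℝ) • (a - a') + (force (b - a) - force (b' - a'))‖ ≤
        10000 * ‖a - a'‖ + ‖force (b - a) - force (b' - a')‖ := by
      rw [← norm10]; exact norm_add_le _ _
    have l6 : ‖c - c'‖ ≤ ‖a - a'‖ + ‖forceInv (force (a - c)) - forceInv (force (a' - c'))‖ := by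
      rw [e3]; exact norm_sub_le _ _
    linarith

theorem contact_lip {e a b c a' b' c' : X} (he : ‖e‖ = 1)
    (ha : ‖a‖ ≤ 1 / 10000000) (ha' : ‖a'‖ ≤ 1 / 10000000)
    (h : Contact e a b c) (h' : Contact e a' b' c') :
    ‖a - a'‖ ≤ 1000 * ‖b - b'‖ ∧ ‖a - a'‖ ≤ 1000 * ‖c - c'‖ ∧
      ‖b - b'‖ ≤ 100000 * ‖a - a'‖ ∧ ‖c - c'‖ ≤ 100000 * ‖a - a'‖ := by
  obtain ⟨h1, h2, h3, h4⟩ := contact_compare he ha ha' h h'
  have na := norm_nonneg (a - a')
  have nb := norm_nonneg (b - b')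
  have nc := norm_nonneg (c - c')
  refine ⟨?_, ?_, ?_, ?_⟩ <;> linarith

end Vale.Agent.P121
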