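import Mathlib
import Vale.Agent.P121.Local

/-!
Potentials and the contact inequality.
-/

namespace Vale.Agent.P121

open Real

variable {X : Type*} [NormedAddCommGroup X] [InnerProductSpace ℝ X]

/-- The Coulomb cost of three points, as a real number. -/
noncomputable def rcost (x y z : X) : ℝ := ‖x - y‖⁻¹ + ‖x - z‖⁻¹ + ‖y - z‖⁻¹

/-- The potential on the central cluster. -/
noncomputable def potA (a : X) : ℝ := 23 / 10 - 5000 * ‖a‖ ^ 2

/-- The potential on the cluster around `e`. -/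
noncomputable def potB (e b : X) : ℝ := 1 / 10 - 5 / 4 * inner ℝ e (b - e) - 5000 * ‖b - e‖ ^ 2

theorem sq_div_le {s t : ℝ} (hs : 4 / 5 ≤ s) : t ^ 2 / (2 * s ^ 3) ≤ t ^ 2 := by
  have h1 : 0 ≤ t ^ 2 := sq_nonneg t
  have h2 : 1 ≤ 2 * s ^ 3 := by
    have : (4 / 5 : ℝ) ^ 3 ≤ s ^ 3 := by gcongr
    norm_num at this
    linarith
  exact div_le_self h1 h2

theorem contact_ineq {e a b c a' b' : X} (he : ‖e‖ = 1)
    (ha : ‖a‖ ≤ 1 / 10000000) (h : Contact e a b c)
    (ha' : ‖a'‖ ≤ 1 / 10000000) (hb' : ‖b' - e‖ ≤ 1 / 100000) :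
    potA a' + potB e b' + (rcost a b c - potA a - potB e b) +
      (‖a' - a‖ ^ 2 + ‖b' - b‖ ^ 2) ≤ rcost a' b' c := by
  obtain ⟨hb, hc, h1, h2⟩ := h
  have hba := norm_ba_ge he ha hb
  have hba' := norm_ba_ge he ha' hb'
  have hac := norm_ac_ge he ha hc
  have hac' := norm_ac_ge he ha' hc
  have hbc := norm_bc_ge he hb hc
  have hbc' := norm_bc_ge he hb' hc
  have nba : b - a ≠ 0 := by intro h; rw [h, norm_zero] at hba; norm_num at hba
  have nba' : b' - a' ≠ 0 := by intro h; rw [h, norm_zero] at hba'; norm_num at hba'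
  have nac : a - c ≠ 0 := by intro h; rw [h, norm_zero] at hac; norm_num at hac
  have nac' : a' - c ≠ 0 := by intro h; rw [h, norm_zero] at hac'; norm_num at hac'
  have nbc : b - c ≠ 0 := by intro h; rw [h, norm_zero] at hbc; norm_num at hbc
  have nbc' : b' - c ≠ 0 := by intro h; rw [h, norm_zero] at hbc'; norm_num at hbc'
  have k1 := key_ineq nba nba'
  have k2 := key_ineq nac nac'
  have k3 := key_ineq nbc nbc'
  have d1 := sq_div_le (s := ‖b - a‖) (t := ‖b' - a' - (b - a)‖) (by linarith)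
  have d2 := sq_div_le (s := ‖a - c‖) (t := ‖a' - c - (a - c)‖) (by linarith)
  have d3 := sq_div_le (s := ‖b - c‖) (t := ‖b' - c - (b - c)‖) (by linarith)
  set A := a' - a with hA
  set B := b' - b with hB
  have e1 : b' - a' - (b - a) = B - A := by rw [hA, hB]; abel
  have e2 : a' - c - (a - c) = A := by rw [hA]; abel
  have e3 : b' - c - (b - c) = B := by rw [hB]; abel
  rw [e1] at k1 d1
  rw [e2] at k2 d2
  rw [e3] at k3 d3
  have f1 : force (a - b) = - force (b - a) := by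
    rw [← force_neg]; congr 1; abel
  rw [f1] at h1
  -- inner products
  have i1 : inner ℝ (force (b - a)) (B - A) + inner ℝ (force (a - c)) A +
      inner ℝ (force (b - c)) B = 10000 * inner ℝ a A + 5 / 4 * inner ℝ e B +
        10000 * inner ℝ (b - e) B := by
    have j1 : inner ℝ (-force (b - a) + force (a - c)) A = 10000 * inner ℝ a A := by
      rw [h1, real_inner_smul_left]
    have j2 : inner ℝ (force (b - a) + force (b - c)) B = 5 / 4 * inner ℝ e B +
        10000 * inner ℝ (b - e) B := by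
      rw [h2, inner_add_left, real_inner_smul_left, real_inner_smul_left]
    rw [inner_add_left, inner_neg_left] at j1
    rw [inner_add_left] at j2
    rw [inner_sub_right]
    linarith
  have p1 : ‖B - A‖ ^ 2 ≤ 2 * ‖A‖ ^ 2 + 2 * ‖B‖ ^ 2 := by
    have := parallelogram_law_with_norm ℝ B A
    nlinarith [sq_nonneg (‖B + A‖), this]
  have pa : potA a' - potA a = - 10000 * inner ℝ a A - 5000 * ‖A‖ ^ 2 := by
    have : a' = a + A := by rw [hA]; abel
    unfold potA
    rw [this, norm_add_sq_real]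
    ring
  have pb : potB e b' - potB e b = - 5 / 4 * inner ℝ e B - 10000 * inner ℝ (b - e) B -
      5000 * ‖B‖ ^ 2 := by
    have : b' - e = (b - e) + B := by rw [hB]; abel
    unfold potB
    rw [this, norm_add_sq_real, inner_add_right]
    ring
  have r1 : rcost a b c = ‖b - a‖⁻¹ + ‖a - c‖⁻¹ + ‖b - c‖⁻¹ := by
    unfold rcost; rw [norm_sub_rev a b]
  have r2 : rcost a' b' c = ‖b' - a'‖⁻¹ + ‖a' - c‖⁻¹ + ‖b' - c‖⁻¹ := by
    unfold rcost; rw [norm_sub_rev a' b']
  rw [r1, r2]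
  have na := sq_nonneg ‖A‖
  have nb := sq_nonneg ‖B‖
  linarith

theorem potA_bounds {a : X} (ha : ‖a‖ ≤ 1 / 10000000) :
    2299 / 1000 ≤ potA a ∧ potA a ≤ 23 / 10 := by
  unfold potA
  have h0 := norm_nonneg a
  constructor <;> nlinarith

theorem potB_bounds {e b : X} (he : ‖e‖ = 1) (hb : ‖b - e‖ ≤ 1 / 100000) :
    99 / 1000 ≤ potB e b ∧ potB e b ≤ 7 / 50 := by
  unfold potB
  have h0 := norm_nonneg (b - e)
  have h1 : |inner ℝ e (b - e)| ≤ ‖b - e‖ := by
    have := abs_real_inner_le_norm e (b - e)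
    rwa [he, one_mul] at this
  have h2 := abs_le.1 h1
  constructor <;> nlinarith

theorem potC_bounds {e a b c : X} (he : ‖e‖ = 1) (ha : ‖a‖ ≤ 1 / 10000000)
    (h : Contact e a b c) :
    0 ≤ rcost a b c - potA a - potB e b ∧ rcost a b c - potA a - potB e b ≤ 7 / 50 := by
  obtain ⟨hb, hc, -, -⟩ := h
  have h1 := norm_ba_ge he ha hb
  have h2 := norm_ba_le he ha hb
  have h3 := norm_ac_ge he ha hc
  have h4 := norm_ac_le he ha hc
  have h5 := norm_bc_ge he hb hc
  have h6 := norm_bc_le he hb hc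
  have hA := potA_bounds ha
  have hb0 := norm_nonneg (b - e)
  have hB1 : potB e b ≤ 1 / 10 + 1 / 1000 ∧ 1 / 10 - 1 / 1000 ≤ potB e b := by
    unfold potB
    have h1 : |inner ℝ e (b - e)| ≤ ‖b - e‖ := by
      have := abs_real_inner_le_norm e (b - e)
      rwa [he, one_mul] at this
    have h2 := abs_le.1 h1
    constructor <;> nlinarith
  have r1 : rcost a b c = ‖b - a‖⁻¹ + ‖a - c‖⁻¹ + ‖b - c‖⁻¹ := by
    unfold rcost; rw [norm_sub_rev a b]
  rw [r1]
  have u1 : ‖b - a‖⁻¹ ≤ 100 / 99 := by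
    rw [inv_le_comm₀ (by linarith) (by norm_num)]; norm_num; linarith
  have u2 : ‖a - c‖⁻¹ ≤ 100 / 98 := by
    rw [inv_le_comm₀ (by linarith) (by norm_num)]; norm_num at h3 ⊢; linarith
  have u3 : ‖b - c‖⁻¹ ≤ 100 / 198 := by
    rw [inv_le_comm₀ (by linarith) (by norm_num)]; norm_num at h5 ⊢; linarith
  have l1 : 10000 / 10001 ≤ ‖b - a‖⁻¹ := by
    rw [le_inv_comm₀ (by norm_num) (by linarith)]; norm_num; linarith
  have l2 : 100 / 102 ≤ ‖a - c‖⁻¹ := by
    rw [le_inv_comm₀ (by norm_num) (by linarith)]; norm_num at h4 ⊢; linarith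
  have l3 : 100 / 202 ≤ ‖b - c‖⁻¹ := by
    rw [le_inv_comm₀ (by norm_num) (by linarith)]; norm_num at h6 ⊢; linarith
  constructor <;> linarith [hA.1, hA.2, hB1.1, hB1.2]

end Vale.Agent.P121
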