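import Mathlib
import Vale.Agent.P121.Energy
import Vale.Agent.P121.Abstract

/-!
Assembly of the counterexample.
-/

namespace Vale.Agent.P121

open MeasureTheory Set Metric
open scoped ENNReal NNReal

variable {X : Type*} [NormedAddCommGroup X] [InnerProductSpace ℝ X]

/-- The five clusters. -/
def cl (b1 c1 b2 c2 : closedBall (0 : X) (1 / 10000000) → X)
    (p : closedBall (0 : X) (1 / 10000000) × Fin 5) : X :=
  ![(p.1 : X), b1 p.1, c1 p.1, b2 p.1, c2 p.1] p.2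

/-- The potential, as a function of the label. -/
noncomputable def pot (e1 e2 : X) (b1 c1 b2 c2 : closedBall (0 : X) (1 / 10000000) → X)
    (p : closedBall (0 : X) (1 / 10000000) × Fin 5) : ℝ :=
  ![potA (p.1 : X), potB e1 (b1 p.1),
    rcost (p.1 : X) (b1 p.1) (c1 p.1) - potA (p.1 : X) - potB e1 (b1 p.1), potB e2 (b2 p.1),
    rcost (p.1 : X) (b2 p.1) (c2 p.1) - potA (p.1 : X) - potB e2 (b2 p.1)] p.2

/-- The cluster centers. -/
def cen (e1 e2 : X) : Fin 5 → X := ![0, e1, -e1, e2, -e2]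

/-- Squared distances between centers. -/
def sqd : Fin 5 → Fin 5 → ℝ :=
  ![![0, 1, 1, 1, 1], ![1, 0, 4, 2, 2], ![1, 4, 0, 2, 2], ![1, 2, 2, 0, 4], ![1, 2, 2, 4, 0]]

/-- Upper bounds for distances between clusters, times 1000. -/
def upd : Fin 5 → Fin 5 → ℕ :=
  ![![20, 1020, 1020, 1020, 1020], ![1020, 20, 2020, 1435, 1435], ![1020, 2020, 20, 1435, 1435],
    ![1020, 1435, 1435, 20, 2020], ![1020, 1435, 1435, 2020, 20]]

/-- Lower bounds of the reciprocal distances, times 100. -/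
def lob : Fin 5 → Fin 5 → ℕ :=
  ![![5000, 98, 98, 98, 98], ![98, 5000, 49, 69, 69], ![98, 49, 5000, 69, 69],
    ![98, 69, 69, 5000, 49], ![98, 69, 69, 49, 5000]]

/-- Upper bounds for the potentials, times 100. -/
def upp : Fin 5 → ℕ := ![230, 14, 14, 14, 14]

/-- Label triples on which there is contact. -/
def conl (i j k : Fin 5) : Prop :=
  (i = 0 ∧ j = 1 ∧ k = 2) ∨ (i = 0 ∧ j = 2 ∧ k = 1) ∨ (i = 1 ∧ j = 0 ∧ k = 2) ∨
  (i = 1 ∧ j = 2 ∧ k = 0) ∨ (i = 2 ∧ j = 0 ∧ k = 1) ∨ (i = 2 ∧ j = 1 ∧ k = 0) ∨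
  (i = 0 ∧ j = 3 ∧ k = 4) ∨ (i = 0 ∧ j = 4 ∧ k = 3) ∨ (i = 3 ∧ j = 0 ∧ k = 4) ∨
  (i = 3 ∧ j = 4 ∧ k = 0) ∨ (i = 4 ∧ j = 0 ∧ k = 3) ∨ (i = 4 ∧ j = 3 ∧ k = 0)

instance (i j k : Fin 5) : Decidable (conl i j k) := by unfold conl; infer_instance

theorem numeric : ∀ i j k : Fin 5, ¬ conl i j k → upp i + upp j + upp k <
    lob i j + lob i k + lob j k := by decide

theorem numeric2 : ∀ i j : Fin 5, lob i j * upd i j ≤ 100000 := by decide

theorem cen_sq {e1 e2 : X} (h1 : ‖e1‖ = 1) (h2 : ‖e2‖ = 1) (h12 : inner ℝ e1 e2 = 0)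
    (i j : Fin 5) : ‖cen e1 e2 i - cen e1 e2 j‖ ^ 2 = sqd i j := by
  have h21 : inner ℝ e2 e1 = 0 := by rw [real_inner_comm]; exact h12
  rw [norm_sub_sq_real]
  fin_cases i <;> fin_cases j <;>
    simp [cen, sqd, h1, h2, h12, h21, real_inner_self_eq_norm_sq] <;> norm_num

theorem cen_le {e1 e2 : X} (h1 : ‖e1‖ = 1) (h2 : ‖e2‖ = 1) (h12 : inner ℝ e1 e2 = 0)
    (i j : Fin 5) : ‖cen e1 e2 i - cen e1 e2 j‖ + 1 / 50 ≤ upd i j / 1000 := by
  have h := cen_sq h1 h2 h12 i j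
  have h0 : (sqd i j) ≤ ((upd i j : ℝ) / 1000 - 1 / 50) ^ 2 := by
    fin_cases i <;> fin_cases j <;> simp [sqd, upd] <;> norm_num
  have h0' : 0 ≤ ((upd i j : ℝ) / 1000 - 1 / 50) := by
    fin_cases i <;> fin_cases j <;> simp [upd] <;> norm_num
  have := abs_le_of_sq_le_sq (h.le.trans h0) h0'
  linarith [le_abs_self ‖cen e1 e2 i - cen e1 e2 j‖]

theorem cen_ge {e1 e2 : X} (h1 : ‖e1‖ = 1) (h2 : ‖e2‖ = 1) (h12 : inner ℝ e1 e2 = 0)
    {i j : Fin 5} (hij : i ≠ j) : 1 ≤ ‖cen e1 e2 i - cen e1 e2 j‖ := by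
  have h := cen_sq h1 h2 h12 i j
  have h0 : 1 ≤ sqd i j := by
    fin_cases i <;> fin_cases j <;> simp [sqd] at hij ⊢
  nlinarith [norm_nonneg (cen e1 e2 i - cen e1 e2 j)]

section main

variable {e1 e2 : X} {b1 c1 b2 c2 : closedBall (0 : X) (1 / 10000000) → X}

/-- Symmetric form of the inequality. -/
def Good (e1 e2 : X) (b1 c1 b2 c2 : closedBall (0 : X) (1 / 10000000) → X)
    (p q s : closedBall (0 : X) (1 / 10000000) × Fin 5) : Prop :=
  pot e1 e2 b1 c1 b2 c2 p + pot e1 e2 b1 c1 b2 c2 q + pot e1 e2 b1 c1 b2 c2 s ≤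
    rcost (cl b1 c1 b2 c2 p) (cl b1 c1 b2 c2 q) (cl b1 c1 b2 c2 s) ∧
  (pot e1 e2 b1 c1 b2 c2 p + pot e1 e2 b1 c1 b2 c2 q + pot e1 e2 b1 c1 b2 c2 s =
    rcost (cl b1 c1 b2 c2 p) (cl b1 c1 b2 c2 q) (cl b1 c1 b2 c2 s) →
    Con (cl b1 c1 b2 c2) (cl b1 c1 b2 c2 p) (cl b1 c1 b2 c2 q) (cl b1 c1 b2 c2 s))

theorem rcost_swap12 (x y z : X) : rcost x y z = rcost y x z := by
  unfold rcost; rw [norm_sub_rev x y]; ring

theorem rcost_swap23 (x y z : X) : rcost x y z = rcost x z y := by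
  unfold rcost; rw [norm_sub_rev y z]; ring

theorem con_swap12 {Ω Y : Type*} {F : Ω × Fin 5 → Y} {x y z : Y}
    (h : Con F x y z) : Con F y x z := by
  rcases h with ⟨ω, h⟩ | ⟨ω, h⟩
  · left; refine ⟨ω, ?_⟩; tauto
  · right; refine ⟨ω, ?_⟩; tauto

theorem con_swap23 {Ω Y : Type*} {F : Ω × Fin 5 → Y} {x y z : Y}
    (h : Con F x y z) : Con F x z y := by
  rcases h with ⟨ω, h⟩ | ⟨ω, h⟩
  · left; refine ⟨ω, ?_⟩; tauto
  · right; refine ⟨ω, ?_⟩; tauto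

theorem Good.swap12 {p q s} (h : Good e1 e2 b1 c1 b2 c2 p q s) :
    Good e1 e2 b1 c1 b2 c2 q p s := by
  obtain ⟨h1, h2⟩ := h
  rw [rcost_swap12] at h1 h2
  refine ⟨by linarith, fun h => con_swap12 (h2 (by linarith))⟩

theorem Good.swap23 {p q s} (h : Good e1 e2 b1 c1 b2 c2 p q s) :
    Good e1 e2 b1 c1 b2 c2 p s q := by
  obtain ⟨h1, h2⟩ := h
  rw [rcost_swap23] at h1 h2
  refine ⟨by linarith, fun h => con_swap23 (h2 (by linarith))⟩

variable (h1 : ‖e1‖ = 1) (h2 : ‖e2‖ = 1) (h12 : inner ℝ e1 e2 = 0)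
  (hc1 : ∀ ω : closedBall (0 : X) (1 / 10000000), Contact e1 (ω : X) (b1 ω) (c1 ω))
  (hc2 : ∀ ω : closedBall (0 : X) (1 / 10000000), Contact e2 (ω : X) (b2 ω) (c2 ω))

omit [InnerProductSpace ℝ X] in
theorem norm_om (ω : closedBall (0 : X) (1 / 10000000)) : ‖(ω : X)‖ ≤ 1 / 10000000 := by
  have := ω.2
  rwa [mem_closedBall_zero_iff] at this

include hc1 hc2 in
theorem cl_near (p : closedBall (0 : X) (1 / 10000000) × Fin 5) :
    ‖cl b1 c1 b2 c2 p - cen e1 e2 p.2‖ ≤ 1 / 100 := by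
  obtain ⟨ω, k⟩ := p
  have hω := norm_om ω
  obtain ⟨m1, m2, -, -⟩ := hc1 ω
  obtain ⟨m3, m4, -, -⟩ := hc2 ω
  fin_cases k
  · simp only [cl, cen]; simp; linarith
  · simp only [cl, cen]; simp; linarith
  · simp only [cl, cen]; simp; linarith
  · simp only [cl, cen]; simp; linarith
  · simp only [cl, cen]; simp; linarith

include h1 h2 hc1 hc2 in
theorem pot_bounds (p : closedBall (0 : X) (1 / 10000000) × Fin 5) :
    0 ≤ pot e1 e2 b1 c1 b2 c2 p ∧ pot e1 e2 b1 c1 b2 c2 p ≤ upp p.2 / 100 := by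
  obtain ⟨ω, k⟩ := p
  have hω := norm_om ω
  have m0 := potA_bounds hω
  have m1 := potB_bounds h1 (hc1 ω).1
  have m2 := potC_bounds h1 hω (hc1 ω)
  have m3 := potB_bounds h2 (hc2 ω).1
  have m4 := potC_bounds h2 hω (hc2 ω)
  fin_cases k
  · simp only [pot, upp]
    simp
    constructor <;> linarith [m0.1, m0.2]
  · simp only [pot, upp]
    simp
    constructor <;> linarith [m1.1, m1.2]
  · simp only [pot, upp]
    simp
    constructor <;> linarith [m2.1, m2.2]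
  · simp only [pot, upp]
    simp
    constructor <;> linarith [m3.1, m3.2]
  · simp only [pot, upp]
    simp
    constructor <;> linarith [m4.1, m4.2]

include h1 h2 h12 hc1 hc2 in
theorem inv_ge (p q : closedBall (0 : X) (1 / 10000000) × Fin 5)
    (hne : cl b1 c1 b2 c2 p ≠ cl b1 c1 b2 c2 q) :
    (lob p.2 q.2 : ℝ) / 100 ≤ ‖cl b1 c1 b2 c2 p - cl b1 c1 b2 c2 q‖⁻¹ := by
  have n1 := cl_near hc1 hc2 p
  have n2 := cl_near hc1 hc2 q
  have n3 := cen_le h1 h2 h12 p.2 q.2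
  have hpos : 0 < ‖cl b1 c1 b2 c2 p - cl b1 c1 b2 c2 q‖ := norm_pos_iff.2 (sub_ne_zero.2 hne)
  have n4 : ‖cl b1 c1 b2 c2 p - cl b1 c1 b2 c2 q‖ ≤ ‖cl b1 c1 b2 c2 p - cen e1 e2 p.2‖ +
      ‖cen e1 e2 p.2 - cen e1 e2 q.2‖ + ‖cl b1 c1 b2 c2 q - cen e1 e2 q.2‖ := by
    calc ‖cl b1 c1 b2 c2 p - cl b1 c1 b2 c2 q‖ =
        ‖(cl b1 c1 b2 c2 p - cen e1 e2 p.2) + (cen e1 e2 p.2 - cen e1 e2 q.2) -
          (cl b1 c1 b2 c2 q - cen e1 e2 q.2)‖ := by congr 1; abel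
      _ ≤ ‖(cl b1 c1 b2 c2 p - cen e1 e2 p.2) + (cen e1 e2 p.2 - cen e1 e2 q.2)‖ +
          ‖cl b1 c1 b2 c2 q - cen e1 e2 q.2‖ := norm_sub_le _ _
      _ ≤ _ := by gcongr; exact norm_add_le _ _
  have n5 : ‖cl b1 c1 b2 c2 p - cl b1 c1 b2 c2 q‖ ≤ (upd p.2 q.2 : ℝ) / 1000 := by linarith
  have n6 := numeric2 p.2 q.2
  have n7 : (lob p.2 q.2 : ℝ) * upd p.2 q.2 ≤ 100000 := by exact_mod_cast n6
  rw [le_inv_comm₀, inv_div]
  · have hl : 0 < (lob p.2 q.2 : ℝ) := by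
      generalize p.2 = i
      generalize q.2 = j
      fin_cases i <;> fin_cases j <;> simp [lob]
    rw [le_div_iff₀ hl]
    nlinarith
  · have hl : 0 < (lob p.2 q.2 : ℝ) := by
      generalize p.2 = i
      generalize q.2 = j
      fin_cases i <;> fin_cases j <;> simp [lob]
    positivity
  · exact hpos

include h1 h2 hc1 hc2 in
theorem good1 (ω ω' ω'' : closedBall (0 : X) (1 / 10000000)) :
    Good e1 e2 b1 c1 b2 c2 (ω', 0) (ω'', 1) (ω, 2) := by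
  have key := contact_ineq h1 (norm_om ω) (hc1 ω) (norm_om ω') (hc1 ω'').1
  have na := sq_nonneg ‖(ω' : X) - ω‖
  have nb := sq_nonneg ‖b1 ω'' - b1 ω‖
  simp only [Good, pot, cl]
  simp only [Matrix.cons_val_zero, Matrix.cons_val_one, Matrix.cons_val]
  constructor
  · linarith
  · intro heq
    have z1 : ‖(ω' : X) - ω‖ ^ 2 = 0 := by linarith
    have z2 : ‖b1 ω'' - b1 ω‖ ^ 2 = 0 := by linarith
    have z3 : ω' = ω := by
      have : (ω' : X) - ω = 0 := by simpa using z1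
      exact Subtype.ext (sub_eq_zero.1 this)
    have z4 : b1 ω'' - b1 ω = 0 := by simpa using z2
    have z5 : ω'' = ω := by
      have := (contact_lip h1 (norm_om ω'') (norm_om ω) (hc1 ω'') (hc1 ω)).1
      rw [z4, norm_zero, mul_zero] at this
      have := norm_le_zero_iff.1 this
      exact Subtype.ext (sub_eq_zero.1 this)
    subst z3
    subst z5
    left
    exact ⟨ω'', Or.inl ⟨rfl, rfl, rfl⟩⟩

include h1 h2 hc1 hc2 in
theorem good2 (ω ω' ω'' : closedBall (0 : X) (1 / 10000000)) :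
    Good e1 e2 b1 c1 b2 c2 (ω', 0) (ω'', 3) (ω, 4) := by
  have key := contact_ineq h2 (norm_om ω) (hc2 ω) (norm_om ω') (hc2 ω'').1
  have na := sq_nonneg ‖(ω' : X) - ω‖
  have nb := sq_nonneg ‖b2 ω'' - b2 ω‖
  simp only [Good, pot, cl]
  simp only [Matrix.cons_val_zero, Matrix.cons_val_one, Matrix.cons_val]
  constructor
  · linarith
  · intro heq
    have z1 : ‖(ω' : X) - ω‖ ^ 2 = 0 := by linarith
    have z2 : ‖b2 ω'' - b2 ω‖ ^ 2 = 0 := by linarith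
    have z3 : ω' = ω := by
      have : (ω' : X) - ω = 0 := by simpa using z1
      exact Subtype.ext (sub_eq_zero.1 this)
    have z4 : b2 ω'' - b2 ω = 0 := by simpa using z2
    have z5 : ω'' = ω := by
      have := (contact_lip h2 (norm_om ω'') (norm_om ω) (hc2 ω'') (hc2 ω)).1
      rw [z4, norm_zero, mul_zero] at this
      have := norm_le_zero_iff.1 this
      exact Subtype.ext (sub_eq_zero.1 this)
    subst z3
    subst z5
    right
    exact ⟨ω'', Or.inl ⟨rfl, rfl, rfl⟩⟩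

include h1 h2 h12 hc1 hc2 in
theorem good_all (p q s : closedBall (0 : X) (1 / 10000000) × Fin 5)
    (hpq : cl b1 c1 b2 c2 p ≠ cl b1 c1 b2 c2 q) (hps : cl b1 c1 b2 c2 p ≠ cl b1 c1 b2 c2 s)
    (hqs : cl b1 c1 b2 c2 q ≠ cl b1 c1 b2 c2 s) : Good e1 e2 b1 c1 b2 c2 p q s := by
  by_cases hcon : conl p.2 q.2 s.2
  · obtain ⟨ω, i⟩ := p
    obtain ⟨ω', j⟩ := q
    obtain ⟨ω'', k⟩ := s
    simp only at hcon
    rcases hcon with ⟨rfl, rfl, rfl⟩ | ⟨rfl, rfl, rfl⟩ | ⟨rfl, rfl, rfl⟩ | ⟨rfl, rfl, rfl⟩ |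
      ⟨rfl, rfl, rfl⟩ | ⟨rfl, rfl, rfl⟩ | ⟨rfl, rfl, rfl⟩ | ⟨rfl, rfl, rfl⟩ | ⟨rfl, rfl, rfl⟩ |
      ⟨rfl, rfl, rfl⟩ | ⟨rfl, rfl, rfl⟩ | ⟨rfl, rfl, rfl⟩
    · exact good1 h1 h2 hc1 hc2 _ _ _
    · exact (good1 h1 h2 hc1 hc2 _ _ _).swap23
    · exact (good1 h1 h2 hc1 hc2 _ _ _).swap12
    · exact (good1 h1 h2 hc1 hc2 _ _ _).swap12.swap23
    · exact (good1 h1 h2 hc1 hc2 _ _ _).swap23.swap12
    · exact (good1 h1 h2 hc1 hc2 _ _ _).swap23.swap12.swap23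
    · exact good2 h1 h2 hc1 hc2 _ _ _
    · exact (good2 h1 h2 hc1 hc2 _ _ _).swap23
    · exact (good2 h1 h2 hc1 hc2 _ _ _).swap12
    · exact (good2 h1 h2 hc1 hc2 _ _ _).swap12.swap23
    · exact (good2 h1 h2 hc1 hc2 _ _ _).swap23.swap12
    · exact (good2 h1 h2 hc1 hc2 _ _ _).swap23.swap12.swap23
  · have n1 := numeric _ _ _ hcon
    have n2 : (upp p.2 : ℝ) + upp q.2 + upp s.2 < lob p.2 q.2 + lob p.2 s.2 + lob q.2 s.2 := by
      exact_mod_cast n1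
    have u1 := (pot_bounds h1 h2 hc1 hc2 p).2
    have u2 := (pot_bounds h1 h2 hc1 hc2 q).2
    have u3 := (pot_bounds h1 h2 hc1 hc2 s).2
    have l1 := inv_ge h1 h2 h12 hc1 hc2 p q hpq
    have l2 := inv_ge h1 h2 h12 hc1 hc2 p s hps
    have l3 := inv_ge h1 h2 h12 hc1 hc2 q s hqs
    have : pot e1 e2 b1 c1 b2 c2 p + pot e1 e2 b1 c1 b2 c2 q + pot e1 e2 b1 c1 b2 c2 s <
        rcost (cl b1 c1 b2 c2 p) (cl b1 c1 b2 c2 q) (cl b1 c1 b2 c2 s) := by
      unfold rcost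
      linarith
    exact ⟨this.le, fun h => absurd h this.ne⟩

include h1 h2 h12 hc1 hc2 in
theorem cl_injective : Function.Injective (cl b1 c1 b2 c2) := by
  rintro ⟨ω, i⟩ ⟨ω', j⟩ h
  have hij : i = j := by
    by_contra hne
    have n1 := cl_near hc1 hc2 (ω, i)
    have n2 := cl_near hc1 hc2 (ω', j)
    have n3 := cen_ge h1 h2 h12 hne
    rw [h] at n1
    have : ‖cen e1 e2 i - cen e1 e2 j‖ ≤ ‖cl b1 c1 b2 c2 (ω', j) - cen e1 e2 j‖ +
        ‖cl b1 c1 b2 c2 (ω', j) - cen e1 e2 i‖ := by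
      calc ‖cen e1 e2 i - cen e1 e2 j‖ = ‖(cl b1 c1 b2 c2 (ω', j) - cen e1 e2 j) -
          (cl b1 c1 b2 c2 (ω', j) - cen e1 e2 i)‖ := by congr 1; abel
        _ ≤ _ := norm_sub_le _ _
    simp only at n1 n2
    linarith
  subst hij
  have l1 := contact_lip h1 (norm_om ω) (norm_om ω') (hc1 ω) (hc1 ω')
  have l2 := contact_lip h2 (norm_om ω) (norm_om ω') (hc2 ω) (hc2 ω')
  have conclude : ‖(ω : X) - ω'‖ ≤ 0 → (ω, i) = (ω', i) := by
    intro h0
    have := norm_le_zero_iff.1 h0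
    rw [Subtype.ext (sub_eq_zero.1 this)]
  apply conclude
  fin_cases i
  · simp only [cl] at h
    simp at h
    rw [h]; simp
  · simp only [cl] at h
    simp at h
    have := l1.1
    rw [h] at this; simpa using this
  · simp only [cl] at h
    simp at h
    have := l1.2.1
    rw [h] at this; simpa using this
  · simp only [cl] at h
    simp at h
    have := l2.1
    rw [h] at this; simpa using this
  · simp only [cl] at h
    simp at h
    have := l2.2.1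
    rw [h] at this; simpa using this

include h1 h2 hc1 hc2 in
theorem cl_antilip (k : Fin 5) : AntilipschitzWith 1000 (fun ω => cl b1 c1 b2 c2 (ω, k)) := by
  apply AntilipschitzWith.of_le_mul_dist
  intro ω ω'
  have l1 := contact_lip h1 (norm_om ω) (norm_om ω') (hc1 ω) (hc1 ω')
  have l2 := contact_lip h2 (norm_om ω) (norm_om ω') (hc2 ω) (hc2 ω')
  rw [Subtype.dist_eq, dist_eq_norm, dist_eq_norm]
  simp only [NNReal.coe_ofNat]
  fin_cases k
  · simp only [cl]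
    simp
    linarith [norm_nonneg ((ω : X) - ω')]
  · simp only [cl]
    simpa using l1.1
  · simp only [cl]
    simpa using l1.2.1
  · simp only [cl]
    simpa using l2.1
  · simp only [cl]
    simpa using l2.2.1

include h1 h2 hc1 hc2 in
theorem cl_continuous (k : Fin 5) : Continuous (fun ω => cl b1 c1 b2 c2 (ω, k)) := by
  have : LipschitzWith 100000 (fun ω => cl b1 c1 b2 c2 (ω, k)) := by
    apply LipschitzWith.of_dist_le_mul
    intro ω ω'
    have l1 := contact_lip h1 (norm_om ω) (norm_om ω') (hc1 ω) (hc1 ω')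
    have l2 := contact_lip h2 (norm_om ω) (norm_om ω') (hc2 ω) (hc2 ω')
    rw [Subtype.dist_eq, dist_eq_norm, dist_eq_norm]
    simp only [NNReal.coe_ofNat]
    fin_cases k
    · simp only [cl]
      simp
      linarith [norm_nonneg ((ω : X) - ω')]
    · simp only [cl]
      simpa using l1.2.2.1
    · simp only [cl]
      simpa using l1.2.2.2
    · simp only [cl]
      simpa using l2.2.2.1
    · simp only [cl]
      simpa using l2.2.2.2
  exact this.continuous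

end main

end Vale.Agent.P121
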