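import Mathlib
import Vale.Agent.P121.Assemble

/-!
Existence of a measure without optimal maps, for the three-marginal Coulomb cost.
-/

namespace Vale.Agent.P121

open MeasureTheory Set Metric Module
open scoped ENNReal NNReal

variable {X : Type*} [NormedAddCommGroup X] [InnerProductSpace ℝ X]

/-- The Coulomb cost with values in `[0, ∞]`. -/
noncomputable def ecost (x y z : X) : ℝ≥0∞ := (edist x y)⁻¹ + (edist x z)⁻¹ + (edist y z)⁻¹

theorem ecost_eq {x y z : X} (hxy : x ≠ y) (hxz : x ≠ z) (hyz : y ≠ z) :
    ecost x y z = ENNReal.ofReal (rcost x y z) := by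
  have aux : ∀ u v : X, u ≠ v → (edist u v)⁻¹ = ENNReal.ofReal (‖u - v‖⁻¹) := by
    intro u v huv
    have hpos : 0 < ‖u - v‖ := norm_pos_iff.2 (sub_ne_zero.2 huv)
    rw [edist_dist, dist_eq_norm, ENNReal.ofReal_inv_of_pos hpos]
  unfold ecost rcost
  rw [aux _ _ hxy, aux _ _ hxz, aux _ _ hyz, ENNReal.ofReal_add (by positivity) (by positivity),
    ENNReal.ofReal_add (by positivity) (by positivity)]

theorem ecost_top {x y z : X} (h : x = y ∨ x = z ∨ y = z) : ecost x y z = ⊤ := by
  unfold ecost
  rcases h with rfl | rfl | rfl <;> simp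

theorem ecost_perm (x y z : X) : ecost y z x = ecost x y z := by
  unfold ecost
  rw [edist_comm y x, edist_comm z x]
  ring

variable [FiniteDimensional ℝ X] [MeasurableSpace X] [BorelSpace X]

omit [InnerProductSpace ℝ X] [FiniteDimensional ℝ X] in
theorem measurable_ecost [SecondCountableTopology X] :
    Measurable fun p : X × X × X => ecost p.1 p.2.1 p.2.2 := by
  unfold ecost
  have m1 : Measurable (fun p : X × X × X => p.1) := measurable_fst
  have m2 : Measurable (fun p : X × X × X => p.2.1) := measurable_fst.comp measurable_snd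
  have m3 : Measurable (fun p : X × X × X => p.2.2) := measurable_snd.comp measurable_snd
  exact ((m1.edist m2).inv.add (m1.edist m3).inv).add (m2.edist m3).inv

theorem null_preimage (ν : Measure X) [ν.IsAddHaarMeasure] {f : closedBall (0 : X) (1 / 10000000) → X}
    (hf : AntilipschitzWith 1000 f) {N : Set X} (hN : ν N = 0) :
    ν (Subtype.val '' (f ⁻¹' N)) = 0 := by
  set d := finrank ℝ X with hd
  have a1 : (μH[d] : Measure X) ≪ ν := Measure.absolutelyContinuous_isAddHaarMeasure _ _
  have a2 : ν ≪ (μH[d] : Measure X) := Measure.absolutelyContinuous_isAddHaarMeasure _ _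
  apply a2
  have i1 : Isometry (Subtype.val : closedBall (0 : X) (1 / 10000000) → X) := isometry_subtype_coe
  rw [i1.hausdorffMeasure_image (Or.inl (by positivity))]
  have h1 := hf.hausdorffMeasure_preimage_le (d := (d : ℝ)) (by positivity) N
  rw [a1 hN, mul_zero] at h1
  exact le_antisymm h1 bot_le

theorem main (ν : Measure X) [ν.IsAddHaarMeasure] {e1 e2 : X}
    (h1 : ‖e1‖ = 1) (h2 : ‖e2‖ = 1) (h12 : inner ℝ e1 e2 = 0) :
    ∃ μ : Measure X, IsProbabilityMeasure μ ∧ μ ≪ ν ∧ ∃ V : ℝ≥0∞, V ≠ ⊤ ∧
      (∀ π : Measure (X × X × X), π.map (fun p => p.1) = μ → π.map (fun p => p.2.1) = μ →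
        π.map (fun p => p.2.2) = μ → V ≤ ∫⁻ p, ecost p.1 p.2.1 p.2.2 ∂π) ∧
      (∃ π : Measure (X × X × X), π.map (fun p => p.1) = μ ∧ π.map (fun p => p.2.1) = μ ∧
        π.map (fun p => p.2.2) = μ ∧ ∫⁻ p, ecost p.1 p.2.1 p.2.2 ∂π = V) ∧
      (∀ T2 T3 : X → X, Measurable T2 → Measurable T3 → μ.map T2 = μ → μ.map T3 = μ →
        ∫⁻ x, ecost x (T2 x) (T3 x) ∂μ ≠ V) := by
  classical
  have : CompleteSpace X := FiniteDimensional.complete ℝ X
  have : SecondCountableTopology X := inferInstance
  choose b1 c1 hc1 using fun ω : closedBall (0 : X) (1 / 10000000) =>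
    exists_contact h1 (norm_om ω)
  choose b2 c2 hc2 using fun ω : closedBall (0 : X) (1 / 10000000) =>
    exists_contact h2 (norm_om ω)
  set F := cl b1 c1 b2 c2 with hFdef
  have hFm : Measurable F := by
    apply measurable_from_prod_countable_left
    intro k
    exact (cl_continuous h1 h2 hc1 hc2 k).measurable
  have hFinj : Function.Injective F := cl_injective h1 h2 h12 hc1 hc2
  have : StandardBorelSpace (closedBall (0 : X) (1 / 10000000)) :=
    isClosed_closedBall.measurableSet.standardBorel
  have hF : MeasurableEmbedding F := hFm.measurableEmbedding hFinj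
  -- the potential
  set g := pot e1 e2 b1 c1 b2 c2 with hg
  have hgb := pot_bounds h1 h2 hc1 hc2
  have hcont := cl_continuous h1 h2 hc1 hc2
  have hgm : Measurable g := by
    apply measurable_from_prod_countable_left
    intro k
    have w0 : Measurable (fun ω : closedBall (0 : X) (1 / 10000000) => (ω : X)) :=
      measurable_subtype_coe
    have w1 : Measurable b1 := by
      have := (hcont 1).measurable; simpa [cl] using this
    have w2 : Measurable c1 := by
      have := (hcont 2).measurable; simpa [cl] using this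
    have w3 : Measurable b2 := by
      have := (hcont 3).measurable; simpa [cl] using this
    have w4 : Measurable c2 := by
      have := (hcont 4).measurable; simpa [cl] using this
    have pA : Measurable (fun ω : closedBall (0 : X) (1 / 10000000) => potA (ω : X)) := by
      unfold potA; fun_prop
    have pB : ∀ (e : X) (b : closedBall (0 : X) (1 / 10000000) → X), Measurable b →
        Measurable (fun ω => potB e (b ω)) := by
      intro e b hb
      unfold potB; fun_prop
    have pC : ∀ (b c : closedBall (0 : X) (1 / 10000000) → X), Measurable b → Measurable c →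
        Measurable (fun ω : closedBall (0 : X) (1 / 10000000) => rcost (ω : X) (b ω) (c ω)) := by
      intro b c hb hc
      unfold rcost; fun_prop
    fin_cases k
    · exact pA
    · exact pB e1 b1 w1
    · exact ((pC b1 c1 w1 w2).sub pA).sub (pB e1 b1 w1)
    · exact pB e2 b2 w3
    · exact ((pC b2 c2 w3 w4).sub pA).sub (pB e2 b2 w3)
  obtain ⟨v, hv, hvF⟩ := hF.exists_measurable_extend (g := fun p => ENNReal.ofReal (g p))
    hgm.ennreal_ofReal (fun _ => inferInstance)
  have hvF' : ∀ p, v (F p) = ENNReal.ofReal (g p) := fun p => congrFun hvF p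
  have hadd : ∀ p q s, v (F p) + v (F q) + v (F s) = ENNReal.ofReal (g p + g q + g s) := by
    intro p q s
    rw [hvF', hvF', hvF', ENNReal.ofReal_add (add_nonneg (hgb p).1 (hgb q).1) (hgb s).1,
      ENNReal.ofReal_add (hgb p).1 (hgb q).1]
  have hall : ∀ x ∈ range F, ∀ y ∈ range F, ∀ z ∈ range F,
      v x + v y + v z ≤ ecost x y z ∧ (v x + v y + v z = ecost x y z → Con F x y z) := by
    rintro _ ⟨p, rfl⟩ _ ⟨q, rfl⟩ _ ⟨s, rfl⟩
    rw [hadd]
    by_cases hd : F p = F q ∨ F p = F s ∨ F q = F s
    · rw [ecost_top hd]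
      exact ⟨le_top, fun h => absurd h ENNReal.ofReal_ne_top⟩
    · push Not at hd
      obtain ⟨d1, d2, d3⟩ := hd
      have hgood := good_all h1 h2 h12 hc1 hc2 p q s d1 d2 d3
      rw [ecost_eq d1 d2 d3]
      refine ⟨ENNReal.ofReal_le_ofReal hgood.1, fun h => hgood.2 ?_⟩
      have n1 : 0 ≤ g p + g q + g s := by
        linarith [(hgb p).1, (hgb q).1, (hgb s).1]
      exact (ENNReal.ofReal_eq_ofReal_iff n1 (n1.trans hgood.1)).1 h
  -- the base measure
  have hAm : MeasurableSet (closedBall (0 : X) (1 / 10000000)) :=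
    isClosed_closedBall.measurableSet
  have hA0 : ν (closedBall (0 : X) (1 / 10000000)) ≠ 0 :=
    (measure_closedBall_pos ν 0 (by norm_num)).ne'
  have hA1 : ν (closedBall (0 : X) (1 / 10000000)) ≠ ⊤ := measure_closedBall_lt_top.ne
  set lam : Measure (closedBall (0 : X) (1 / 10000000)) :=
    (ν (closedBall (0 : X) (1 / 10000000)))⁻¹ • ν.comap Subtype.val with hlam
  have emb : MeasurableEmbedding (Subtype.val : closedBall (0 : X) (1 / 10000000) → X) :=
    MeasurableEmbedding.subtype_coe hAm
  have : IsProbabilityMeasure lam := by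
    constructor
    rw [hlam, Measure.smul_apply, smul_eq_mul, emb.comap_apply, image_univ, Subtype.range_coe]
    exact ENNReal.inv_mul_cancel hA0 hA1
  have hac : ∀ k : Fin 5, lam.map (fun ω => F (ω, k)) ≪ ν := by
    intro k
    apply Measure.AbsolutelyContinuous.mk
    intro s hs hνs
    rw [Measure.map_apply (meas_comp hFm k) hs, hlam, Measure.smul_apply, smul_eq_mul,
      emb.comap_apply]
    have := null_preimage ν (cl_antilip h1 h2 hc1 hc2 k) hνs
    rw [this, mul_zero]
  have hprob : IsProbabilityMeasure (mix lam F) := mix_prob lam hFm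
  have hacμ : mix lam F ≪ ν := by
    unfold mix
    apply Measure.AbsolutelyContinuous.smul_left
    exact (((hac 0).add_left (hac 1)).add_left (hac 2)).add_left
      (((hac 0).add_left (hac 3)).add_left (hac 4))
  have hrange : MeasurableSet (range F) := hF.measurableSet_range
  have hμS := mix_range lam hF
  have hVfin : ∫⁻ x, v x ∂(mix lam F) ≠ ⊤ := by
    have : ∫⁻ x, v x ∂(mix lam F) ≤ ∫⁻ x, 3 ∂(mix lam F) := by
      apply lintegral_mono_ae
      have : ∀ᵐ x ∂(mix lam F), x ∈ range F := hμS
      filter_upwards [this] with x hx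
      obtain ⟨p, rfl⟩ := hx
      rw [hvF']
      have h3 : g p ≤ 3 := by
        refine (hgb p).2.trans ?_
        have : upp p.2 ≤ 300 := by
          generalize p.2 = k
          fin_cases k <;> simp [upp]
        have : (upp p.2 : ℝ) ≤ 300 := by exact_mod_cast this
        linarith
      calc ENNReal.ofReal (g p) ≤ ENNReal.ofReal 3 := ENNReal.ofReal_le_ofReal h3
        _ = 3 := by simp
    refine ne_top_of_le_ne_top ?_ this
    rw [lintegral_const, measure_univ]
    simp
  refine ⟨mix lam F, hprob, hacμ, (∫⁻ x, v x ∂(mix lam F)) + (∫⁻ x, v x ∂(mix lam F)) +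
    (∫⁻ x, v x ∂(mix lam F)), by simp [hVfin], ?_, ?_, ?_⟩
  · intro π p1 p2 p3
    exact dual_le hrange hμS hv p1 p2 p3 (fun x hx y hy z hz => (hall x hx y hy z hz).1)
  · have cont1 : ∀ ω, ecost (F (ω, 0)) (F (ω, 1)) (F (ω, 2)) =
        v (F (ω, 0)) + v (F (ω, 1)) + v (F (ω, 2)) := by
      intro ω
      rw [hadd]
      have i01 : F (ω, 0) ≠ F (ω, 1) := fun h => by simpa using hFinj h
      have i02 : F (ω, 0) ≠ F (ω, 2) := fun h => by simpa using hFinj h
      have i12 : F (ω, 1) ≠ F (ω, 2) := fun h => by simpa using hFinj h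
      rw [ecost_eq i01 i02 i12]
      congr 1
      simp only [hFdef, hg, cl, pot]
      simp
    have cont2 : ∀ ω, ecost (F (ω, 0)) (F (ω, 3)) (F (ω, 4)) =
        v (F (ω, 0)) + v (F (ω, 3)) + v (F (ω, 4)) := by
      intro ω
      rw [hadd]
      have i01 : F (ω, 0) ≠ F (ω, 3) := fun h => by simpa using hFinj h
      have i02 : F (ω, 0) ≠ F (ω, 4) := fun h => by simpa using hFinj h
      have i12 : F (ω, 3) ≠ F (ω, 4) := fun h => by simpa using hFinj h
      rw [ecost_eq i01 i02 i12]
      congr 1
      simp only [hFdef, hg, cl, pot]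
      simp
    exact exists_plan lam hFm measurable_ecost hv cont1
      (fun ω => by rw [ecost_perm, cont1 ω])
      (fun ω => by rw [ecost_perm, ecost_perm, cont1 ω]) cont2
      (fun ω => by rw [ecost_perm, cont2 ω])
      (fun ω => by rw [ecost_perm, ecost_perm, cont2 ω])
  · intro T2 T3 hT2 hT3 m2 m3 hopt
    have hcon := map_contact hrange hμS hv measurable_ecost hVfin
      (fun x hx y hy z hz => (hall x hx y hy z hz).1) (P := Con F)
      (fun x hx y hy z hz => (hall x hx y hy z hz).2) hT2 hT3 m2 m3 hopt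
    exact no_maps lam hF hT2 hT3 m2 m3 hcon

end Vale.Agent.P121
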